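import Vale.Agent.P369.H400G.Transfer
import Vale.Agent.P369.H400G.PosProd

/-!
P369 (helper124), TOP part 1: the product of two states, the beam splitter on it, and the partial
trace, for arbitrary pairs of states: existence of the output and its matrix elements.
-/

set_option linter.all false

namespace Vale.Agent.P369Top

open scoped InnerProductSpace
open Filter Topology
open Vale.Agent.P369 (Conf ampn ampn_hom below mem_below tot cj cj_apply cj_inner)
open Vale.Agent.P369.Sys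
open Vale.Agent.P369Y
open Vale.Agent.P369N (exists_basisMap isNumberBasis_equiv)

noncomputable section

section gram

variable {ι : Type} {K : Type} [NormedAddCommGroup K] [InnerProductSpace ℂ K] [CompleteSpace K]

/-- a square summable family of vectors as a bounded operator on number states -/
theorem exists_hs {f : ι → K} (hf : IsNumberBasis f) {w : ι → K}
    (hw : Summable fun i => ‖w i‖ ^ 2) : ∃ Y : K →L[ℂ] K, ∀ i, Y (f i) = w i := by
  classical
  -- `V u = (⟪w i, u⟫)_i`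
  have hs : ∀ u : K, Summable fun i => ‖⟪w i, u⟫_ℂ‖ ^ 2 := fun u => by
    refine Summable.of_nonneg_of_le (fun _ => by positivity) (fun i => ?_) (hw.mul_right (‖u‖ ^ 2))
    rw [← mul_pow]
    exact pow_le_pow_left₀ (norm_nonneg _) (norm_inner_le_norm _ _) 2
  let V0 : K →ₗ[ℂ] lp (fun _ : ι => ℂ) 2 :=
    { toFun := fun u => ⟨fun i => ⟪w i, u⟫_ℂ, by
        refine memℓp_gen ?_
        simpa only [ENNReal.toReal_ofNat, Real.rpow_ofNat] using hs u⟩
      map_add' := fun x y => by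
        apply Subtype.ext
        funext i
        exact inner_add_right _ _ _
      map_smul' := fun c x => by
        apply Subtype.ext
        funext i
        exact inner_smul_right _ _ _ }
  have hV0 : ∀ u, ‖V0 u‖ ≤ Real.sqrt (∑' i, ‖w i‖ ^ 2) * ‖u‖ := by
    intro u
    have h1 : HasSum (fun i => ‖⟪w i, u⟫_ℂ‖ ^ 2) (‖V0 u‖ ^ 2) := by
      have := lp.hasSum_norm (p := 2) (E := fun _ : ι => ℂ) (by norm_num) (V0 u)
      simp only [ENNReal.toReal_ofNat, Real.rpow_ofNat] at this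
      exact this
    have h2 : ‖V0 u‖ ^ 2 ≤ (∑' i, ‖w i‖ ^ 2) * ‖u‖ ^ 2 := by
      rw [← h1.tsum_eq, ← tsum_mul_right]
      refine Summable.tsum_le_tsum (fun i => ?_) h1.summable (hw.mul_right _)
      rw [← mul_pow]
      exact pow_le_pow_left₀ (norm_nonneg _) (norm_inner_le_norm _ _) 2
    refine abs_le_of_sq_le_sq' ?_ (by positivity) |>.2
    rw [mul_pow, Real.sq_sqrt (tsum_nonneg fun i => by positivity)]
    exact h2
  let V : K →L[ℂ] lp (fun _ : ι => ℂ) 2 := V0.mkContinuous _ hV0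
  obtain ⟨T, hT⟩ := P369.exists_repr hf
  refine ⟨(ContinuousLinearMap.adjoint V) ∘L (T.toContinuousLinearEquiv : K →L[ℂ] _), fun i => ?_⟩
  apply ext_inner_right ℂ
  intro u
  change ⟪ContinuousLinearMap.adjoint V (T (f i)), u⟫_ℂ = _
  rw [ContinuousLinearMap.adjoint_inner_left, hT, lp.inner_single_left]
  have h3 : (V u) i = ⟪w i, u⟫_ℂ := rfl
  rw [h3]
  simp

end gram

variable {n : ℕ} {H K : Type} [NormedAddCommGroup H] [InnerProductSpace ℂ H] [CompleteSpace H]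
  [NormedAddCommGroup K] [InnerProductSpace ℂ K] [CompleteSpace K]

/-- a factorization of the product of two states -/
theorem exists_prod_factor {e : Conf n → H} {f : Conf n → Conf n → K} (he : IsNumberBasis e)
    (hf : IsNumberBasis fun x : Conf n × Conf n => f x.1 x.2) {ρA ρB : H →L[ℂ] H}
    (hA : IsState e ρA) (hB : IsState e ρB) :
    ∃ Y : K →L[ℂ] K, (∀ k l k' l' : Conf n, ⟪Y (f k l), Y (f k' l')⟫_ℂ =
      ⟪e k, ρA (e k')⟫_ℂ * ⟪e l, ρB (e l')⟫_ℂ) ∧
      HasSum (fun x : Conf n × Conf n => ‖Y (f x.1 x.2)‖ ^ 2) 1 := by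
  obtain ⟨t, ht⟩ := exists_tens he hf
  obtain ⟨a, ha⟩ := Ptr.pos_factor hA.1
  obtain ⟨b, hb⟩ := Ptr.pos_factor hB.1
  have hsA : HasSum (fun k => ‖a (e k)‖ ^ 2) 1 := by
    have h := Complex.hasSum_re hA.2
    simp only [ha, Ptr.re_inner_self, Complex.one_re] at h
    exact h
  have hsB : HasSum (fun k => ‖b (e k)‖ ^ 2) 1 := by
    have h := Complex.hasSum_re hB.2
    simp only [hb, Ptr.re_inner_self, Complex.one_re] at h
    exact h
  have hs : HasSum (fun x : Conf n × Conf n => ‖t (a (e x.1)) (b (e x.2))‖ ^ 2) 1 := by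
    have h := hsA.mul hsB (hsA.summable.mul_of_nonneg hsB.summable (fun _ => by positivity)
      (fun _ => by positivity))
    rw [one_mul] at h
    refine h.congr_fun fun x => ?_
    rw [ht.norm he hf, mul_pow]
  obtain ⟨Y, hY⟩ := exists_hs hf hs.summable
  have hY' : ∀ k l, Y (f k l) = t (a (e k)) (b (e l)) := fun k l => hY (k, l)
  refine ⟨Y, fun k l k' l' => ?_, ?_⟩
  · rw [hY', hY', ht.inner_tens he hf, ha, hb]
  · simp only [hY']
    exact hs

/-- existence of the product of two states -/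
theorem exists_product {e : Conf n → H} {f : Conf n → Conf n → K} (he : IsNumberBasis e)
    (hf : IsNumberBasis fun x : Conf n × Conf n => f x.1 x.2) {ρA ρB : H →L[ℂ] H}
    (hA : IsState e ρA) (hB : IsState e ρB) :
    ∃ S : K →L[ℂ] K, IsProduct e f ρA ρB S := by
  obtain ⟨Y, h1, h2⟩ := exists_prod_factor he hf hA hB
  refine ⟨(ContinuousLinearMap.adjoint Y) ∘L Y, fun k l k' l' => ?_⟩
  rw [ContinuousLinearMap.comp_apply, ContinuousLinearMap.adjoint_inner_right]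
  exact h1 k l k' l'

/-- the trace of a product of states -/
theorem product_trace {e : Conf n → H} {f : Conf n → Conf n → K} {ρA ρB : H →L[ℂ] H}
    (hA : IsState e ρA) (hB : IsState e ρB) {S : K →L[ℂ] K} (hS : IsProduct e f ρA ρB S) :
    HasSum (fun x : Conf n × Conf n => ⟪f x.1 x.2, S (f x.1 x.2)⟫_ℂ) 1 := by
  obtain ⟨p, hp⟩ : ∃ p : Conf n → ℂ, ∀ k, p k = ⟪e k, ρA (e k)⟫_ℂ := ⟨_, fun _ => rfl⟩
  obtain ⟨q, hq⟩ : ∃ q : Conf n → ℂ, ∀ k, q k = ⟪e k, ρB (e k)⟫_ℂ := ⟨_, fun _ => rfl⟩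
  have sp : HasSum p 1 := by
    have h := hA.2
    simp only [← hp] at h
    exact h
  have sq : HasSum q 1 := by
    have h := hB.2
    simp only [← hq] at h
    exact h
  have h := sp.mul sq (summable_mul_of_summable_norm sp.summable.norm sq.summable.norm)
  rw [one_mul] at h
  have e1 : (fun x : Conf n × Conf n => ⟪f x.1 x.2, S (f x.1 x.2)⟫_ℂ) =
      fun x => p x.1 * q x.2 := by
    funext x
    rw [hS, ← hp, ← hq]
  rw [e1]
  exact h

/-! ### partial traces -/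

omit [CompleteSpace K] in
theorem tsum_inner_apply {B : Conf n → H →L[ℂ] H} (sB : Summable B) (φ φ' : H) :
    HasSum (fun l => ⟪φ, B l φ'⟫_ℂ) ⟪φ, (∑' l, B l) φ'⟫_ℂ := P369T.t5_key sB φ φ'

/-- summable blocks of a positive operator with finite trace -/
theorem exists_blocks {e : Conf n → H} {f : Conf n → Conf n → K} (he : IsNumberBasis e)
    (hf : IsNumberBasis fun x : Conf n × Conf n => f x.1 x.2) {T : K →L[ℂ] K} (hT : T.IsPositive)
    (h1 : HasSum (fun x : Conf n × Conf n => (⟪f x.1 x.2, T (f x.1 x.2)⟫_ℂ).re) 1) :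
    ∃ B : Conf n → H →L[ℂ] H, (∀ l, (B l).IsPositive) ∧ Summable B ∧
      ∀ l m m', ⟪e m, B l (e m')⟫_ℂ = ⟪f m l, T (f m' l)⟫_ℂ := by
  obtain ⟨t, ht⟩ := exists_tens he hf
  obtain ⟨B, hB⟩ : ∃ B : Conf n → H →L[ℂ] H, ∀ l, B l =
    (ContinuousLinearMap.adjoint (ht.tR he hf (e l))) ∘L T ∘L (ht.tR he hf (e l)) :=
    ⟨_, fun _ => rfl⟩
  have eB : ∀ l m m', ⟪e m, B l (e m')⟫_ℂ = ⟪f m l, T (f m' l)⟫_ℂ := by
    intro l m m'
    rw [hB, ContinuousLinearMap.comp_apply, ContinuousLinearMap.adjoint_inner_right,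
      ContinuousLinearMap.comp_apply, ht.tR_apply he hf, ht.tR_apply he hf, ht.basis he hf,
      ht.basis he hf]
  have pB : ∀ l, (B l).IsPositive := fun l => by
    rw [hB]
    exact hT.adjoint_conj _
  have h2r : HasSum (fun x : Conf n × Conf n => (⟪f x.2 x.1, T (f x.2 x.1)⟫_ℂ).re) 1 :=
    (Equiv.prodComm (Conf n) (Conf n)).hasSum_iff.2 h1
  have tB : ∀ l, HasSum (fun m : Conf n => (⟪e m, B l (e m)⟫_ℂ).re)
      (∑' m, (⟪f m l, T (f m l)⟫_ℂ).re) := by
    intro l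
    refine (h2r.summable.prod_factor l).hasSum.congr_fun fun m => ?_
    rw [eB]
  have nB : ∀ l, ‖B l‖ ≤ ∑' m, (⟪f m l, T (f m l)⟫_ℂ).re := fun l =>
    Ptr.norm_le_trace he (pB l) (tB l)
  exact ⟨B, pB, Summable.of_norm_bounded h2r.summable.prod nB, eB⟩

/-- partial trace of a positive operator with finite trace -/
theorem exists_ptrace {e : Conf n → H} {f : Conf n → Conf n → K} (he : IsNumberBasis e)
    (hf : IsNumberBasis fun x : Conf n × Conf n => f x.1 x.2) {T : K →L[ℂ] K} (hT : T.IsPositive)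
    (h1 : HasSum (fun x : Conf n × Conf n => ⟪f x.1 x.2, T (f x.1 x.2)⟫_ℂ) 1) :
    ∃ ρC : H →L[ℂ] H, IsState e ρC ∧
      ∀ m m' : Conf n, HasSum (fun l => ⟪f m l, T (f m' l)⟫_ℂ) ⟪e m, ρC (e m')⟫_ℂ := by
  have h1r : HasSum (fun x : Conf n × Conf n => (⟪f x.1 x.2, T (f x.1 x.2)⟫_ℂ).re) 1 := by
    have := Complex.hasSum_re h1
    simpa using this
  obtain ⟨B, pB, sB, eB⟩ := exists_blocks he hf hT h1r
  refine ⟨∑' l, B l, ⟨P369T.t5_tsum_pos sB pB, ?_⟩, fun m m' => ?_⟩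
  · refine h1.prod_fiberwise fun m => ?_
    refine (tsum_inner_apply sB (e m) (e m)).congr_fun fun l => ?_
    rw [eB]
  · refine (tsum_inner_apply sB (e m) (e m')).congr_fun fun l => ?_
    rw [eB]

/-! ### matrix elements of the beam splitter -/

theorem bs_inner {f : Conf n → Conf n → K} {η : ℝ}
    (hf : IsNumberBasis fun x : Conf n × Conf n => f x.1 x.2)
    {U : K ≃ₗᵢ[ℂ] K} (hU : IsBeamSplitter η f U) (m l k j : Conf n) :
    ⟪f m l, U (f k j)⟫_ℂ =
      ((ampn (Real.sqrt η) (Real.sqrt (1 - η)) m l k j : ℝ) : ℂ) := by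
  obtain ⟨T, hT⟩ := P369.exists_repr hf
  have hT' : ∀ k l, T (f k l) = P369.ket2 k l := fun k l => hT (k, l)
  rw [← P369.bs_matrix (P369.bs_to hU T hT'), ← hT', ← hT']
  change _ = ⟪T (f m l), T (U (T.symm (T (f k j))))⟫_ℂ
  rw [T.symm_apply_apply, T.inner_map_map]

/-- the configurations with given sum -/
def lev (c : Conf n) : Finset (Conf n × Conf n) :=
  ((below c) ×ˢ (below c)).filter fun x => x.1 + x.2 = c

theorem mem_lev {c : Conf n} {x : Conf n × Conf n} : x ∈ lev c ↔ x.1 + x.2 = c := by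
  unfold lev
  rw [Finset.mem_filter, Finset.mem_product, mem_below, mem_below]
  refine ⟨fun h => h.2, fun h => ⟨⟨fun j => ?_, fun j => ?_⟩, h⟩⟩
  · rw [← h]; exact Nat.le_add_right _ _
  · rw [← h]; exact Nat.le_add_left _ _

theorem bs_symm_apply {f : Conf n → Conf n → K} {η : ℝ}
    (hf : IsNumberBasis fun x : Conf n × Conf n => f x.1 x.2)
    {U : K ≃ₗᵢ[ℂ] K} (hU : IsBeamSplitter η f U) (m l : Conf n) :
    U.symm (f m l) = ∑ y ∈ lev (m + l),
      ((ampn (Real.sqrt η) (Real.sqrt (1 - η)) m l y.1 y.2 : ℝ) : ℂ) • f y.1 y.2 := by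
  apply ext_nb hf
  rintro ⟨a, b⟩
  simp only
  have h1 : ⟪f a b, U.symm (f m l)⟫_ℂ = ⟪U (f a b), f m l⟫_ℂ := by
    rw [← U.inner_map_map, U.apply_symm_apply]
  rw [h1, ← inner_conj_symm, bs_inner hf hU, Complex.conj_ofReal, inner_sum]
  have ho := orthonormal_iff_ite.1 hf.1
  have h2 : ∀ y ∈ lev (m + l), ⟪f a b,
      ((ampn (Real.sqrt η) (Real.sqrt (1 - η)) m l y.1 y.2 : ℝ) : ℂ) • f y.1 y.2⟫_ℂ =
      if (a, b) = y then ((ampn (Real.sqrt η) (Real.sqrt (1 - η)) m l y.1 y.2 : ℝ) : ℂ) else 0 := by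
    intro y _
    rw [inner_smul_right]
    have := ho (a, b) y
    simp only at this
    rw [this]
    split_ifs <;> simp
  rw [Finset.sum_congr rfl h2, Finset.sum_ite_eq]
  split_ifs with h
  · rfl
  · rw [ampn_hom]
    · simp
    · intro h'
      exact h (mem_lev.2 h'.symm)

theorem sum_lev {β : Type} [AddCommMonoid β] (c : Conf n) (F : Conf n × Conf n → β) :
    ∑ x ∈ lev c, F x = ∑ m ∈ below c, F (m, c - m) := by
  refine Finset.sum_bij' (fun x _ => x.1) (fun m _ => (m, c - m)) ?_ ?_ ?_ ?_ ?_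
  · intro x hx
    exact (P369.mem_below_of_add (mem_lev.1 hx)).1
  · intro m hm
    exact mem_lev.2 (P369.sub_add_of_mem hm)
  · intro x hx
    exact Prod.ext rfl (P369.mem_below_of_add (mem_lev.1 hx)).2
  · intro m _
    rfl
  · intro x hx
    rw [(P369.mem_below_of_add (mem_lev.1 hx)).2]

/-- orthogonality of the amplitudes -/
theorem ampn_orth {η : ℝ} (h0 : 0 ≤ η) (h1 : η ≤ 1) (c : Conf n) {y y' : Conf n × Conf n}
    (hy : y ∈ lev c) (hy' : y' ∈ lev c) :
    ∑ x ∈ lev c, ampn (Real.sqrt η) (Real.sqrt (1 - η)) x.1 x.2 y.1 y.2 *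
      ampn (Real.sqrt η) (Real.sqrt (1 - η)) x.1 x.2 y'.1 y'.2 = if y = y' then 1 else 0 := by
  rw [sum_lev]
  obtain ⟨a1, a2⟩ := P369.mem_below_of_add (mem_lev.1 hy)
  obtain ⟨b1, b2⟩ := P369.mem_below_of_add (mem_lev.1 hy')
  have h := P369.coln_orth (P369.sc_sq h0 h1) a1 b1
  rw [a2, b2] at h
  simp only at h ⊢
  rw [h]
  by_cases hk : y.1 = y'.1
  · have hk2 : y.2 = y'.2 := by rw [← a2, ← b2, hk]
    rw [if_pos hk, if_pos (Prod.ext hk hk2)]
  · rw [if_neg hk, if_neg (fun h' => hk (congrArg Prod.fst h'))]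

/-- the beam splitter preserves the weight of every level -/
theorem lev_trace {f : Conf n → Conf n → K} {η : ℝ} (h0 : 0 ≤ η) (h1 : η ≤ 1)
    (hf : IsNumberBasis fun x : Conf n × Conf n => f x.1 x.2)
    {U : K ≃ₗᵢ[ℂ] K} (hU : IsBeamSplitter η f U) (S : K →L[ℂ] K) (c : Conf n) :
    ∑ x ∈ lev c, ⟪f x.1 x.2, U (S (U.symm (f x.1 x.2)))⟫_ℂ =
      ∑ y ∈ lev c, ⟪f y.1 y.2, S (f y.1 y.2)⟫_ℂ := by
  have e1 : ∀ x ∈ lev c, ⟪f x.1 x.2, U (S (U.symm (f x.1 x.2)))⟫_ℂ =
      ∑ y ∈ lev c, ∑ y' ∈ lev c,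
        (((ampn (Real.sqrt η) (Real.sqrt (1 - η)) x.1 x.2 y.1 y.2 *
          ampn (Real.sqrt η) (Real.sqrt (1 - η)) x.1 x.2 y'.1 y'.2 : ℝ)) : ℂ) *
          ⟪f y.1 y.2, S (f y'.1 y'.2)⟫_ℂ := by
    intro x hx
    have hl := mem_lev.1 hx
    have e2 : ⟪f x.1 x.2, U (S (U.symm (f x.1 x.2)))⟫_ℂ =
        ⟪U.symm (f x.1 x.2), S (U.symm (f x.1 x.2))⟫_ℂ := by
      rw [← U.inner_map_map (U.symm (f x.1 x.2)), U.apply_symm_apply]
    rw [e2, bs_symm_apply hf hU, hl, sum_inner]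
    refine Finset.sum_congr rfl fun y _ => ?_
    rw [map_sum, inner_sum]
    refine Finset.sum_congr rfl fun y' _ => ?_
    rw [inner_smul_left, map_smul, inner_smul_right, Complex.conj_ofReal]
    push_cast
    ring
  rw [Finset.sum_congr rfl e1, Finset.sum_comm]
  refine Finset.sum_congr rfl fun y hy => ?_
  rw [Finset.sum_comm]
  have e3 : ∀ y' ∈ lev c, ∑ x ∈ lev c,
      (((ampn (Real.sqrt η) (Real.sqrt (1 - η)) x.1 x.2 y.1 y.2 *
          ampn (Real.sqrt η) (Real.sqrt (1 - η)) x.1 x.2 y'.1 y'.2 : ℝ)) : ℂ) *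
          ⟪f y.1 y.2, S (f y'.1 y'.2)⟫_ℂ =
      if y = y' then ⟪f y.1 y.2, S (f y'.1 y'.2)⟫_ℂ else 0 := by
    intro y' hy'
    rw [← Finset.sum_mul, ← Complex.ofReal_sum, ampn_orth h0 h1 c hy hy']
    split_ifs <;> simp
  rw [Finset.sum_congr rfl e3, Finset.sum_ite_eq, if_pos hy]

end

end Vale.Agent.P369Top
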