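import Vale.Agent.P369.H124.Top1

/-!
P369 (helper124), TOP part 2: levels of the total configuration, the output of an arbitrary pair of
states as a convergent sum, existence of the output, its trace and its energy.
-/

set_option linter.all false

namespace Vale.Agent.P369Top

open scoped InnerProductSpace
open Filter Topology
open Vale.Agent.P369 (Conf ampn ampn_hom below mem_below tot cj cj_apply cj_inner)
open Vale.Agent.P369.Sys
open Vale.Agent.P369Y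

noncomputable section

variable {n : ℕ}

/-! ### sums over levels -/

/-- sums over a finite set of pairs are bounded by the sums over the levels it meets -/
theorem sum_le_lev {F : Conf n × Conf n → ℝ} (hF : ∀ x, 0 ≤ F x) (s : Finset (Conf n × Conf n)) :
    ∑ x ∈ s, F x ≤ ∑ c ∈ s.image (fun x => x.1 + x.2), ∑ x ∈ lev c, F x := by
  classical
  rw [← Finset.sum_biUnion]
  · refine Finset.sum_le_sum_of_subset_of_nonneg (fun x hx => ?_) fun x _ _ => hF x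
    rw [Finset.mem_biUnion]
    exact ⟨x.1 + x.2, Finset.mem_image_of_mem _ hx, mem_lev.2 rfl⟩
  · intro c _ c' _ h
    rw [Function.onFun, Finset.disjoint_left]
    intro x hx hx'
    exact h ((mem_lev.1 hx).symm.trans (mem_lev.1 hx'))

theorem summable_of_lev {F : Conf n × Conf n → ℝ} (hF : ∀ x, 0 ≤ F x)
    (h : Summable fun c => ∑ x ∈ lev c, F x) : Summable F := by
  classical
  refine summable_of_sum_le hF (c := ∑' c, ∑ x ∈ lev c, F x) fun s => ?_
  refine (sum_le_lev hF s).trans ?_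
  exact h.sum_le_tsum _ fun c _ => Finset.sum_nonneg fun x _ => hF x

theorem hasSum_lev {F : Conf n × Conf n → ℝ} {a : ℝ} (h : HasSum F a) :
    HasSum (fun c => ∑ x ∈ lev c, F x) a := by
  have h1 := (Equiv.sigmaFiberEquiv (fun x : Conf n × Conf n => x.1 + x.2)).hasSum_iff.2 h
  refine h1.sigma fun c => ?_
  have h2 : HasSum (fun x : lev c => F x.1) (∑ x ∈ lev c, F x) := by
    rw [← Finset.sum_coe_sort]
    exact hasSum_fintype _
  have e : {x : Conf n × Conf n // x.1 + x.2 = c} ≃ lev c :=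
    Equiv.subtypeEquivRight fun x => mem_lev.symm
  exact (Equiv.hasSum_iff (Equiv.subtypeEquivRight fun x => (mem_lev (c := c) (x := x)).symm)).2 h2

theorem tot_add (a b : Conf n) : tot (a + b) = tot a + tot b := by
  unfold tot
  rw [← Finset.sum_add_distrib]
  refine Finset.sum_congr rfl fun j _ => ?_
  rw [Pi.add_apply, Nat.cast_add]

/-! ### vectors -/

section vec

variable {K : Type} [NormedAddCommGroup K] [InnerProductSpace ℂ K]

theorem re_inner_self (x : K) : (⟪x, x⟫_ℂ).re = ‖x‖ ^ 2 := by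
  rw [inner_self_eq_norm_sq_to_K]; norm_cast

/-- the transformed family of vectors -/
def zv (η : ℝ) (w : Conf n × Conf n → K) (x : Conf n × Conf n) : K :=
  ∑ y ∈ lev (x.1 + x.2), ((ampn (Real.sqrt η) (Real.sqrt (1 - η)) x.1 x.2 y.1 y.2 : ℝ) : ℂ) • w y

theorem zv_inner (η : ℝ) (w : Conf n × Conf n → K) (x x' : Conf n × Conf n) :
    ⟪zv η w x, zv η w x'⟫_ℂ = ∑ y ∈ lev (x.1 + x.2), ∑ y' ∈ lev (x'.1 + x'.2),
      ((ampn (Real.sqrt η) (Real.sqrt (1 - η)) x.1 x.2 y.1 y.2 *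
        ampn (Real.sqrt η) (Real.sqrt (1 - η)) x'.1 x'.2 y'.1 y'.2 : ℝ) : ℂ) * ⟪w y, w y'⟫_ℂ := by
  unfold zv
  rw [sum_inner]
  refine Finset.sum_congr rfl fun y _ => ?_
  rw [inner_sum]
  refine Finset.sum_congr rfl fun y' _ => ?_
  rw [inner_smul_left, inner_smul_right, Complex.conj_ofReal]
  push_cast
  ring

theorem zv_lev {η : ℝ} (h0 : 0 ≤ η) (h1 : η ≤ 1) (w : Conf n × Conf n → K) (c : Conf n) :
    ∑ x ∈ lev c, ‖zv η w x‖ ^ 2 = ∑ y ∈ lev c, ‖w y‖ ^ 2 := by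
  have h : ∑ x ∈ lev c, ⟪zv η w x, zv η w x⟫_ℂ = ∑ y ∈ lev c, ⟪w y, w y⟫_ℂ := by
    have e1 : ∀ x ∈ lev c, ⟪zv η w x, zv η w x⟫_ℂ = ∑ y ∈ lev c, ∑ y' ∈ lev c,
      ((ampn (Real.sqrt η) (Real.sqrt (1 - η)) x.1 x.2 y.1 y.2 *
        ampn (Real.sqrt η) (Real.sqrt (1 - η)) x.1 x.2 y'.1 y'.2 : ℝ) : ℂ) * ⟪w y, w y'⟫_ℂ := by
      intro x hx
      rw [zv_inner, mem_lev.1 hx]
    rw [Finset.sum_congr rfl e1, Finset.sum_comm]
    refine Finset.sum_congr rfl fun y hy => ?_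
    rw [Finset.sum_comm]
    have e3 : ∀ y' ∈ lev c, ∑ x ∈ lev c,
        (((ampn (Real.sqrt η) (Real.sqrt (1 - η)) x.1 x.2 y.1 y.2 *
            ampn (Real.sqrt η) (Real.sqrt (1 - η)) x.1 x.2 y'.1 y'.2 : ℝ)) : ℂ) *
            ⟪w y, w y'⟫_ℂ =
        if y = y' then ⟪w y, w y'⟫_ℂ else 0 := by
      intro y' hy'
      rw [← Finset.sum_mul, ← Complex.ofReal_sum, ampn_orth h0 h1 c hy hy']
      split_ifs <;> simp
    rw [Finset.sum_congr rfl e3, Finset.sum_ite_eq, if_pos hy]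
  have h2 := congrArg Complex.re h
  rw [Complex.re_sum, Complex.re_sum] at h2
  simpa only [re_inner_self] using h2

theorem norm_zv_le {η : ℝ} (h0 : 0 ≤ η) (h1 : η ≤ 1) (w : Conf n × Conf n → K)
    (x : Conf n × Conf n) : ‖zv η w x‖ ^ 2 ≤ ∑ y ∈ lev (x.1 + x.2), ‖w y‖ ^ 2 := by
  rw [← zv_lev h0 h1]
  exact Finset.single_le_sum (f := fun x => ‖zv η w x‖ ^ 2) (fun _ _ => by positivity)
    (mem_lev.2 rfl)

/-- total weight -/
theorem zv_hasSum {η : ℝ} (h0 : 0 ≤ η) (h1 : η ≤ 1) {w : Conf n × Conf n → K} {a : ℝ}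
    (hw : HasSum (fun y => ‖w y‖ ^ 2) a) : HasSum (fun x => ‖zv η w x‖ ^ 2) a := by
  have h2 := hasSum_lev hw
  have h3 : Summable fun x => ‖zv η w x‖ ^ 2 := by
    refine summable_of_lev (fun _ => by positivity) ?_
    refine h2.summable.congr fun c => ?_
    rw [zv_lev h0 h1]
  have h4 := hasSum_lev h3.hasSum
  have h5 : HasSum (fun c => ∑ x ∈ lev c, ‖zv η w x‖ ^ 2) a := by
    refine h2.congr_fun fun c => ?_
    rw [zv_lev h0 h1]
  rw [← h4.unique h5]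
  exact h3.hasSum

/-- total energy -/
theorem zv_energy {η : ℝ} (h0 : 0 ≤ η) (h1 : η ≤ 1) {w : Conf n × Conf n → K}
    (hw : Summable (fun y => (tot y.1 + tot y.2) * ‖w y‖ ^ 2)) :
    Summable (fun x => (tot x.1 + tot x.2) * ‖zv η w x‖ ^ 2) := by
  refine summable_of_lev (fun x => ?_) ?_
  · have := P369.tot_nonneg x.1
    have := P369.tot_nonneg x.2
    positivity
  refine (hasSum_lev hw.hasSum).summable.congr fun c => ?_
  have e : ∀ v : Conf n × Conf n → K, ∑ x ∈ lev c, (tot x.1 + tot x.2) * ‖v x‖ ^ 2 =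
      tot c * ∑ x ∈ lev c, ‖v x‖ ^ 2 := by
    intro v
    rw [Finset.mul_sum]
    refine Finset.sum_congr rfl fun x hx => ?_
    rw [← tot_add, mem_lev.1 hx]
  rw [e, e, zv_lev h0 h1]

end vec

/-! ### the output -/

variable {H K : Type} [NormedAddCommGroup H] [InnerProductSpace ℂ H] [CompleteSpace H]
  [NormedAddCommGroup K] [InnerProductSpace ℂ K] [CompleteSpace K]

omit [CompleteSpace H] in
/-- matrix elements of the transformed product -/
theorem element_zv {e : Conf n → H} {f : Conf n → Conf n → K} {η : ℝ}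
    (hf : IsNumberBasis fun x : Conf n × Conf n => f x.1 x.2)
    {U : K ≃ₗᵢ[ℂ] K} (hU : IsBeamSplitter η f U) {ρA ρB : H →L[ℂ] H} {S : K →L[ℂ] K}
    (hS : IsProduct e f ρA ρB S) {w : Conf n × Conf n → K}
    (hw : ∀ y y' : Conf n × Conf n, ⟪w y, w y'⟫_ℂ =
      ⟪e y.1, ρA (e y'.1)⟫_ℂ * ⟪e y.2, ρB (e y'.2)⟫_ℂ) (x x' : Conf n × Conf n) :
    ⟪f x.1 x.2, U (S (U.symm (f x'.1 x'.2)))⟫_ℂ = ⟪zv η w x, zv η w x'⟫_ℂ := by
  have e2 : ⟪f x.1 x.2, U (S (U.symm (f x'.1 x'.2)))⟫_ℂ =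
      ⟪U.symm (f x.1 x.2), S (U.symm (f x'.1 x'.2))⟫_ℂ := by
    rw [← U.inner_map_map (U.symm (f x.1 x.2)), U.apply_symm_apply]
  rw [e2, bs_symm_apply hf hU, bs_symm_apply hf hU, sum_inner, zv_inner]
  refine Finset.sum_congr rfl fun y _ => ?_
  rw [map_sum, inner_sum]
  refine Finset.sum_congr rfl fun y' _ => ?_
  rw [inner_smul_left, map_smul, inner_smul_right, Complex.conj_ofReal, hw, hS]
  push_cast
  ring

/-- the output of two states -/
theorem output_all {η : ℝ} (h0 : 0 ≤ η) (h1 : η ≤ 1) {e : Conf n → H} {f : Conf n → Conf n → K}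
    (he : IsNumberBasis e) (hf : IsNumberBasis fun x : Conf n × Conf n => f x.1 x.2)
    {ρA ρB : H →L[ℂ] H} (hA : IsState e ρA) (hB : IsState e ρB) :
    ∃ w : Conf n × Conf n → K, (∀ y y' : Conf n × Conf n, ⟪w y, w y'⟫_ℂ =
        ⟪e y.1, ρA (e y'.1)⟫_ℂ * ⟪e y.2, ρB (e y'.2)⟫_ℂ) ∧
      HasSum (fun y => ‖w y‖ ^ 2) 1 ∧
      ∃ ρC : H →L[ℂ] H, IsOutput η e f ρA ρB ρC ∧ IsState e ρC ∧
        (∀ m m', HasSum (fun l => ⟪zv η w (m, l), zv η w (m', l)⟫_ℂ) ⟪e m, ρC (e m')⟫_ℂ) ∧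
        ∀ ρC' : H →L[ℂ] H, IsOutput η e f ρA ρB ρC' → ρC' = ρC := by
  obtain ⟨Y, hY1, hY2⟩ := exists_prod_factor he hf hA hB
  obtain ⟨S, hS⟩ := exists_product he hf hA hB
  obtain ⟨U, hU⟩ := exists_bsSys (n := n) h0 h1 hf
  have pS : S.IsPositive := isProduct_isPositive he hf hA.1 hB.1 hS
  have pT : (cj U S).IsPositive := P369.cj_isPositive U pS
  obtain ⟨w, hw⟩ : ∃ w : Conf n × Conf n → K, ∀ y, w y = Y (f y.1 y.2) := ⟨_, fun _ => rfl⟩
  have hww : ∀ y y' : Conf n × Conf n, ⟪w y, w y'⟫_ℂ =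
        ⟪e y.1, ρA (e y'.1)⟫_ℂ * ⟪e y.2, ρB (e y'.2)⟫_ℂ := fun y y' => by
    rw [hw, hw]
    exact hY1 y.1 y.2 y'.1 y'.2
  have hws : HasSum (fun y => ‖w y‖ ^ 2) 1 := by
    simp only [hw]
    exact hY2
  have hel : ∀ x x' : Conf n × Conf n, ⟪f x.1 x.2, cj U S (f x'.1 x'.2)⟫_ℂ =
      ⟪zv η w x, zv η w x'⟫_ℂ := fun x x' => by
    rw [cj_apply]
    exact element_zv hf hU hS hww x x'
  have htr : HasSum (fun x : Conf n × Conf n => ⟪f x.1 x.2, cj U S (f x.1 x.2)⟫_ℂ) 1 := by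
    have h2 := Complex.hasSum_ofReal.2 (zv_hasSum h0 h1 hws)
    rw [Complex.ofReal_one] at h2
    refine h2.congr_fun fun x => ?_
    rw [hel, inner_self_eq_norm_sq_to_K]
    push_cast
    rfl
  obtain ⟨ρC, hC, hout⟩ := exists_ptrace he hf pT htr
  have hO : IsOutput η e f ρA ρB ρC := ⟨U, S, hU, hS, fun m m' => hout m m'⟩
  have hfin : ∀ m m', HasSum (fun l => ⟪zv η w (m, l), zv η w (m', l)⟫_ℂ) ⟪e m, ρC (e m')⟫_ℂ := by
    intro m m'
    refine (hout m m').congr_fun fun l => ?_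
    exact (hel (m, l) (m', l)).symm
  refine ⟨w, hww, hws, ρC, hO, hC, hfin, fun ρC' hO' => ?_⟩
  obtain ⟨U', S', hU', hS', hM'⟩ := hO'
  apply clm_ext he
  intro m'
  apply ext_nb he
  intro m
  have h3 : HasSum (fun l => ⟪zv η w (m, l), zv η w (m', l)⟫_ℂ) ⟪e m, ρC' (e m')⟫_ℂ := by
    refine (hM' m m').congr_fun fun l => ?_
    exact (element_zv hf hU' hS' hww (m, l) (m', l)).symm
  exact h3.unique (hfin m m')

theorem summable_prod_energy {p q : Conf n → ℝ} (hp0 : ∀ k, 0 ≤ p k) (hq0 : ∀ k, 0 ≤ q k)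
    (hp : Summable p) (hq : Summable q) (ep : Summable fun k => tot k * p k)
    (eq : Summable fun k => tot k * q k) :
    Summable fun y : Conf n × Conf n => (tot y.1 + tot y.2) * (p y.1 * q y.2) := by
  have h2 := ep.mul_of_nonneg hq (fun k => mul_nonneg (P369.tot_nonneg k) (hp0 k)) hq0
  have h3 := hp.mul_of_nonneg eq hp0 (fun k => mul_nonneg (P369.tot_nonneg k) (hq0 k))
  refine (h2.add h3).congr fun y => ?_
  ring

/-- the energy of the output -/
theorem output_energy {η : ℝ} (h0 : 0 ≤ η) (h1 : η ≤ 1) {e : Conf n → H}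
    {ρA ρB ρC : H →L[ℂ] H} (hA : IsState e ρA) (hB : IsState e ρB)
    (eA : FiniteEnergy e ρA) (eB : FiniteEnergy e ρB)
    {w : Conf n × Conf n → K} (hw : ∀ y y' : Conf n × Conf n, ⟪w y, w y'⟫_ℂ =
        ⟪e y.1, ρA (e y'.1)⟫_ℂ * ⟪e y.2, ρB (e y'.2)⟫_ℂ)
    (hC : ∀ m m', HasSum (fun l => ⟪zv η w (m, l), zv η w (m', l)⟫_ℂ) ⟪e m, ρC (e m')⟫_ℂ) :
    Summable (fun y => (tot y.1 + tot y.2) * ‖w y‖ ^ 2) ∧ FiniteEnergy e ρC := by
  obtain ⟨p, hp⟩ : ∃ p : Conf n → ℝ, ∀ k, p k = (⟪e k, ρA (e k)⟫_ℂ).re := ⟨_, fun _ => rfl⟩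
  obtain ⟨q, hq⟩ : ∃ q : Conf n → ℝ, ∀ k, q k = (⟪e k, ρB (e k)⟫_ℂ).re := ⟨_, fun _ => rfl⟩
  have hA0 : ∀ k, 0 ≤ p k := fun k => by rw [hp]; exact P369V.g3_nonneg hA k
  have hB0 : ∀ k, 0 ≤ q k := fun k => by rw [hq]; exact P369V.g3_nonneg hB k
  have sA : Summable p := (P369V.g3_hasSum hA).summable.congr fun k => (hp k).symm
  have sB : Summable q := (P369V.g3_hasSum hB).summable.congr fun k => (hq k).symm
  have tA : Summable fun k => tot k * p k := by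
    refine Summable.congr eA fun k => ?_
    rw [hp]
    rfl
  have tB : Summable fun k => tot k * q k := by
    refine Summable.congr eB fun k => ?_
    rw [hq]
    rfl
  have hwn : ∀ y : Conf n × Conf n, ‖w y‖ ^ 2 = p y.1 * q y.2 := by
    intro y
    rw [← re_inner_self, hw, Complex.mul_re, hp, hq]
    have h3 := hA.1.inner_nonneg_right (e y.1)
    rw [Complex.nonneg_iff] at h3
    rw [← h3.2]
    ring
  have hs : Summable (fun y : Conf n × Conf n => (tot y.1 + tot y.2) * ‖w y‖ ^ 2) := by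
    refine (summable_prod_energy hA0 hB0 sA sB tA tB).congr fun y => ?_
    rw [hwn]
  refine ⟨hs, ?_⟩
  have h4 := zv_energy h0 h1 hs
  have h5 : Summable fun x : Conf n × Conf n => tot x.1 * ‖zv η w x‖ ^ 2 := by
    refine Summable.of_nonneg_of_le (fun x => ?_) (fun x => ?_) h4
    · exact mul_nonneg (P369.tot_nonneg _) (by positivity)
    · refine mul_le_mul_of_nonneg_right ?_ (by positivity)
      have := P369.tot_nonneg x.2
      linarith
  have h6 : Summable fun m => ∑' l, tot m * ‖zv η w (m, l)‖ ^ 2 := h5.prod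
  refine h6.congr fun m => ?_
  have h7 := Complex.hasSum_re (hC m m)
  simp only [re_inner_self] at h7
  rw [tsum_mul_left, h7.tsum_eq]
  rfl

/-- Existence of the output; it is a state of finite mean photon number. -/
theorem output_state {η : ℝ} (h0 : 0 ≤ η) (h1 : η ≤ 1) {e : Conf n → H} {f : Conf n → Conf n → K}
    (he : IsNumberBasis e) (hf : IsNumberBasis fun x : Conf n × Conf n => f x.1 x.2)
    {ρA ρB : H →L[ℂ] H} (hA : IsState e ρA) (hB : IsState e ρB)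
    (eA : FiniteEnergy e ρA) (eB : FiniteEnergy e ρB) :
    (∃ ρC : H →L[ℂ] H, IsOutput η e f ρA ρB ρC) ∧
    ∀ ρC : H →L[ℂ] H, IsOutput η e f ρA ρB ρC → IsState e ρC ∧ FiniteEnergy e ρC := by
  obtain ⟨w, hw, hws, ρC, hO, hC, hfin, huniq⟩ := output_all h0 h1 he hf hA hB
  refine ⟨⟨ρC, hO⟩, fun ρC' hO' => ?_⟩
  rw [huniq ρC' hO']
  exact ⟨hC, (output_energy h0 h1 hA hB eA eB hw hfin).2⟩

end

end Vale.Agent.P369Top
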