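import Vale.Agent.P369.Bd3.B2

/-!
P369 (helper124): interface of the final assembly.
`bsOut n η K A B` is the output of the beam splitter on two matrices indexed by the configurations
with at most `K` photons; `LinFin n` is the linearised inequality for such pairs.
-/

namespace Vale.Agent.P369Top

open scoped Kronecker ComplexOrder
open Vale.Agent.P369 (Conf ampn)
open Vale.Agent.P369V (ent)
open Vale.Agent.P369A (Ct)

noncomputable section

/-- Kraus matrices of the beam splitter between finite cuts -/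
def bsKr (n : ℕ) (η : ℝ) (K : ℕ) (l : Ct n (2 * K)) :
    Matrix (Ct n (2 * K)) (Ct n K × Ct n K) ℂ :=
  fun m y => ((ampn (Real.sqrt η) (Real.sqrt (1 - η)) m.1 l.1 y.1.1 y.2.1 : ℝ) : ℂ)

/-- the output of the beam splitter on finite cuts -/
def bsOut (n : ℕ) (η : ℝ) (K : ℕ) (A B : Matrix (Ct n K) (Ct n K) ℂ) :
    Matrix (Ct n (2 * K)) (Ct n (2 * K)) ℂ :=
  ∑ l : Ct n (2 * K), bsKr n η K l * (A ⊗ₖ B) * (bsKr n η K l).conjTranspose

/-- the temperature of a thermal state with mean photon number `N` -/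
def tmp (N : ℝ) : ℝ := (Real.log ((N + 1) / N))⁻¹

/-- the linearised inequality for pairs of density matrices with at most `K` photons -/
def LinFinAt (n : ℕ) (η NA NB : ℝ) (K : ℕ) (A B : Matrix (Ct n K) (Ct n K) ℂ) (ε : ℝ) : Prop :=
  n * (tmp (η * NA + (1 - η) * NB) * P369.g (η * NA + (1 - η) * NB) -
      η * (tmp NA * P369.g NA) - (1 - η) * (tmp NB * P369.g NB)) - ε ≤
    tmp (η * NA + (1 - η) * NB) * ent (bsOut n η K A B) -
      η * (tmp NA * ent A) - (1 - η) * (tmp NB * ent B)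

/-- the linearised inequality for all pairs of finite density matrices -/
def LinFin (n : ℕ) : Prop :=
  ∀ η NA NB : ℝ, 0 < η → η < 1 → 0 < NA → 0 < NB →
    ∀ (K : ℕ) (A B : Matrix (Ct n K) (Ct n K) ℂ), A.PosSemidef → A.trace = 1 →
      B.PosSemidef → B.trace = 1 → LinFinAt n η NA NB K A B 0

/-- a matrix on at most `K` photons as a matrix on at most `D` photons -/
def padC {n : ℕ} (K D : ℕ) (A : Matrix (Ct n K) (Ct n K) ℂ) : Matrix (Ct n D) (Ct n D) ℂ :=
  fun x y => if h : (∑ j, x.1 j ≤ K) ∧ ∑ j, y.1 j ≤ K then A ⟨x.1, h.1⟩ ⟨y.1, h.2⟩ else 0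

/-- the linearised inequality up to an error, at large cut-offs -/
def LinFinLim (n : ℕ) : Prop :=
  ∀ η NA NB : ℝ, 0 < η → η < 1 → 0 < NA → 0 < NB →
    ∀ (K : ℕ) (A B : Matrix (Ct n K) (Ct n K) ℂ), A.PosSemidef → A.trace = 1 →
      B.PosSemidef → B.trace = 1 → ∀ ε > 0, ∃ D, K ≤ D ∧
        LinFinAt n η NA NB D (padC K D A) (padC K D B) ε

/-- the linearised inequality for all pairs of states of finite energy -/
def LinAll (n : ℕ) (H K : Type) [NormedAddCommGroup H] [InnerProductSpace ℂ H] [CompleteSpace H]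
    [NormedAddCommGroup K] [InnerProductSpace ℂ K] [CompleteSpace K] : Prop :=
  ∀ (e : Conf n → H) (f : Conf n → Conf n → K), P369.Sys.IsNumberBasis e →
    (P369.Sys.IsNumberBasis fun x : Conf n × Conf n => f x.1 x.2) →
    ∀ ρA ρB ρC : H →L[ℂ] H, P369.Sys.IsState e ρA → P369.Sys.IsState e ρB →
    P369.Sys.FiniteEnergy e ρA → P369.Sys.FiniteEnergy e ρB →
    ∀ η NA NB : ℝ, 0 < η → η < 1 → 0 < NA → 0 < NB → P369.Sys.IsOutput η e f ρA ρB ρC →
    n * (tmp (η * NA + (1 - η) * NB) * P369.g (η * NA + (1 - η) * NB) -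
      η * (tmp NA * P369.g NA) - (1 - η) * (tmp NB * P369.g NB)) ≤
    tmp (η * NA + (1 - η) * NB) * P369.Sys.entropy e ρC -
      η * (tmp NA * P369.Sys.entropy e ρA) - (1 - η) * (tmp NB * P369.Sys.entropy e ρB)

end

end Vale.Agent.P369Top
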