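import Vale.Agent.P369.H124.Top2
import Vale.Agent.P369.H124.TopDefs
import Mathlib.Analysis.InnerProductSpace.GramMatrix

/-!
P369 (helper124), TOP part 3: the output of truncated states as a kernel, its relation with the
finite matrices `bsOut`, positivity, trace and tail of the energy.
-/

set_option linter.all false

namespace Vale.Agent.P369Top

open scoped InnerProductSpace Kronecker ComplexOrder
open Matrix Filter Topology
open Vale.Agent.P369 (Conf ampn ampn_hom below mem_below tot)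
open Vale.Agent.P369V (ent)
open Vale.Agent.P369A (Ct cut)
open Vale.Agent.P369T (tb mem_tb sum_tb tendsto_tb tb_tail)

noncomputable section

variable {n : ℕ} {K : Type} [NormedAddCommGroup K] [InnerProductSpace ℂ K]

/-- the truncated family of vectors -/
def wc (M : ℕ) (w : Conf n × Conf n → K) (y : Conf n × Conf n) : K :=
  if y ∈ tb n M ×ˢ tb n M then w y else 0

theorem norm_wc_le (M : ℕ) (w : Conf n × Conf n → K) (y : Conf n × Conf n) :
    ‖wc M w y‖ ^ 2 ≤ ‖w y‖ ^ 2 := by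
  unfold wc
  split_ifs
  · exact le_rfl
  · rw [norm_zero, zero_pow two_ne_zero]; positivity

theorem zv_wc (η : ℝ) (M : ℕ) (w : Conf n × Conf n → K) (x : Conf n × Conf n) :
    zv η (wc M w) x = ∑ y ∈ tb n M ×ˢ tb n M,
      ((ampn (Real.sqrt η) (Real.sqrt (1 - η)) x.1 x.2 y.1 y.2 : ℝ) : ℂ) • w y := by
  classical
  unfold zv wc
  have e1 : ∀ y ∈ tb n M ×ˢ tb n M,
      ((ampn (Real.sqrt η) (Real.sqrt (1 - η)) x.1 x.2 y.1 y.2 : ℝ) : ℂ) • w y =
      if y ∈ lev (x.1 + x.2) then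
        ((ampn (Real.sqrt η) (Real.sqrt (1 - η)) x.1 x.2 y.1 y.2 : ℝ) : ℂ) • w y else 0 := by
    intro y _
    split_ifs with h
    · rfl
    · rw [ampn_hom, Complex.ofReal_zero, zero_smul]
      intro h'
      exact h (mem_lev.2 h'.symm)
  rw [Finset.sum_congr rfl e1, Finset.sum_ite_mem]
  simp only [smul_ite, smul_zero]
  rw [Finset.sum_ite_mem, Finset.inter_comm]

/-- nothing is truncated at low levels -/
theorem zv_wc_eq (η : ℝ) {M : ℕ} (w : Conf n × Conf n → K) {x : Conf n × Conf n}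
    (h : ∑ j, (x.1 + x.2) j ≤ M) : zv η (wc M w) x = zv η w x := by
  unfold zv
  refine Finset.sum_congr rfl fun y hy => ?_
  have hy' := mem_lev.1 hy
  have h1 : y ∈ tb n M ×ˢ tb n M := by
    rw [Finset.mem_product, mem_tb, mem_tb]
    have h2 : ∑ j, y.1 j + ∑ j, y.2 j ≤ M := by
      rw [← Finset.sum_add_distrib]
      refine le_trans (le_of_eq ?_) h
      rw [← hy']
      rfl
    omega
  unfold wc
  rw [if_pos h1]

/-- everything is truncated at high levels -/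
theorem zv_wc_zero (η : ℝ) {M : ℕ} (w : Conf n × Conf n → K) {x : Conf n × Conf n}
    (h : 2 * M < ∑ j, (x.1 + x.2) j) : zv η (wc M w) x = 0 := by
  unfold zv
  refine Finset.sum_eq_zero fun y hy => ?_
  have hy' := mem_lev.1 hy
  have h1 : y ∉ tb n M ×ˢ tb n M := by
    rw [Finset.mem_product, mem_tb, mem_tb]
    have h2 : 2 * M < ∑ j, y.1 j + ∑ j, y.2 j := by
      rw [← Finset.sum_add_distrib]
      refine lt_of_lt_of_le h (le_of_eq ?_)
      rw [← hy']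
      rfl
    omega
  unfold wc
  rw [if_neg h1, smul_zero]

/-- the output kernel of truncated states -/
def ck (η : ℝ) (M : ℕ) (w : Conf n × Conf n → K) (m m' : Conf n) : ℂ :=
  ∑ l ∈ tb n (2 * M), ⟪zv η (wc M w) (m, l), zv η (wc M w) (m', l)⟫_ℂ

theorem ck_hasSum (η : ℝ) (M : ℕ) (w : Conf n × Conf n → K) (m m' : Conf n) :
    HasSum (fun l => ⟪zv η (wc M w) (m, l), zv η (wc M w) (m', l)⟫_ℂ) (ck η M w m m') := by
  unfold ck
  refine hasSum_sum_of_ne_finset_zero fun l hl => ?_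
  rw [zv_wc_zero η w (x := (m, l)), inner_zero_left]
  rw [mem_tb] at hl
  have : ∑ j, (m + l) j = ∑ j, m j + ∑ j, l j := by
    rw [← Finset.sum_add_distrib]; rfl
  change 2 * M < ∑ j, (m + l) j
  omega

/-- the finite matrices are cuts of the kernel -/
theorem cut_ck {η : ℝ} {M : ℕ} {w : Conf n × Conf n → K} {SA SB : Conf n → Conf n → ℂ}
    (hw : ∀ y y' : Conf n × Conf n, ⟪w y, w y'⟫_ℂ = SA y.1 y'.1 * SB y.2 y'.2) :
    cut (2 * M) (ck η M w) = bsOut n η M (cut M SA) (cut M SB) := by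
  ext m m'
  change ck η M w m.1 m'.1 = _
  unfold bsOut ck
  rw [Matrix.sum_apply, ← sum_tb (2 * M)
    (fun l => ⟪zv η (wc M w) (m.1, l), zv η (wc M w) (m'.1, l)⟫_ℂ)]
  refine Finset.sum_congr rfl fun l _ => ?_
  rw [zv_wc, zv_wc, sum_inner, Finset.sum_product, ← sum_tb M (fun a => ∑ b ∈ tb n M,
    ⟪((ampn (Real.sqrt η) (Real.sqrt (1 - η)) m.1 l.1 a b : ℝ) : ℂ) • w (a, b),
      ∑ y' ∈ tb n M ×ˢ tb n M,
        ((ampn (Real.sqrt η) (Real.sqrt (1 - η)) m'.1 l.1 y'.1 y'.2 : ℝ) : ℂ) • w y'⟫_ℂ)]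
  have e1 : ∀ a : Ct n M, (∑ b ∈ tb n M,
      ⟪((ampn (Real.sqrt η) (Real.sqrt (1 - η)) m.1 l.1 a.1 b : ℝ) : ℂ) • w (a.1, b),
      ∑ y' ∈ tb n M ×ˢ tb n M,
        ((ampn (Real.sqrt η) (Real.sqrt (1 - η)) m'.1 l.1 y'.1 y'.2 : ℝ) : ℂ) • w y'⟫_ℂ) =
      ∑ b : Ct n M, ⟪((ampn (Real.sqrt η) (Real.sqrt (1 - η)) m.1 l.1 a.1 b.1 : ℝ) : ℂ) •
        w (a.1, b.1), ∑ y' ∈ tb n M ×ˢ tb n M,
        ((ampn (Real.sqrt η) (Real.sqrt (1 - η)) m'.1 l.1 y'.1 y'.2 : ℝ) : ℂ) • w y'⟫_ℂ := by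
    intro a
    exact (sum_tb M (fun b => ⟪((ampn (Real.sqrt η) (Real.sqrt (1 - η)) m.1 l.1 a.1 b : ℝ) : ℂ) •
        w (a.1, b), ∑ y' ∈ tb n M ×ˢ tb n M,
        ((ampn (Real.sqrt η) (Real.sqrt (1 - η)) m'.1 l.1 y'.1 y'.2 : ℝ) : ℂ) • w y'⟫_ℂ)).symm
  rw [Finset.sum_congr rfl fun a _ => e1 a, Matrix.mul_apply]
  -- right side
  have e2 : ∀ (z : Ct n M × Ct n M), (bsKr n η M l * (cut M SA ⊗ₖ cut M SB)) m z =
      ∑ y : Ct n M × Ct n M, ((ampn (Real.sqrt η) (Real.sqrt (1 - η)) m.1 l.1 y.1.1 y.2.1 : ℝ) : ℂ) *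
        ⟪w (y.1.1, y.2.1), w (z.1.1, z.2.1)⟫_ℂ := by
    intro z
    rw [Matrix.mul_apply]
    refine Finset.sum_congr rfl fun y _ => ?_
    rw [Matrix.kroneckerMap_apply, hw]
    rfl
  simp only [e2]
  have e3 : ∀ a b : Ct n M, ⟪((ampn (Real.sqrt η) (Real.sqrt (1 - η)) m.1 l.1 a.1 b.1 : ℝ) : ℂ) •
        w (a.1, b.1), ∑ y' ∈ tb n M ×ˢ tb n M,
        ((ampn (Real.sqrt η) (Real.sqrt (1 - η)) m'.1 l.1 y'.1 y'.2 : ℝ) : ℂ) • w y'⟫_ℂ =
      ∑ z : Ct n M × Ct n M, ((ampn (Real.sqrt η) (Real.sqrt (1 - η)) m.1 l.1 a.1 b.1 : ℝ) : ℂ) *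
        ⟪w (a.1, b.1), w (z.1.1, z.2.1)⟫_ℂ *
        ((ampn (Real.sqrt η) (Real.sqrt (1 - η)) m'.1 l.1 z.1.1 z.2.1 : ℝ) : ℂ) := by
    intro a b
    rw [inner_smul_left, Complex.conj_ofReal, inner_sum, Finset.mul_sum, Finset.sum_product,
      ← sum_tb M (fun c => ∑ d ∈ tb n M,
        ((ampn (Real.sqrt η) (Real.sqrt (1 - η)) m.1 l.1 a.1 b.1 : ℝ) : ℂ) *
        ⟪w (a.1, b.1), ((ampn (Real.sqrt η) (Real.sqrt (1 - η)) m'.1 l.1 c d : ℝ) : ℂ) •
          w (c, d)⟫_ℂ), Fintype.sum_prod_type]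
    refine Finset.sum_congr rfl fun c _ => ?_
    rw [← sum_tb M (fun d =>
        ((ampn (Real.sqrt η) (Real.sqrt (1 - η)) m.1 l.1 a.1 b.1 : ℝ) : ℂ) *
        ⟪w (a.1, b.1), ((ampn (Real.sqrt η) (Real.sqrt (1 - η)) m'.1 l.1 c.1 d : ℝ) : ℂ) •
          w (c.1, d)⟫_ℂ)]
    refine Finset.sum_congr rfl fun d _ => ?_
    rw [inner_smul_right]
    ring
  simp only [e3]
  rw [← Fintype.sum_prod_type (f := fun y : Ct n M × Ct n M => ∑ z : Ct n M × Ct n M,
    ((ampn (Real.sqrt η) (Real.sqrt (1 - η)) m.1 l.1 y.1.1 y.2.1 : ℝ) : ℂ) *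
        ⟪w (y.1.1, y.2.1), w (z.1.1, z.2.1)⟫_ℂ *
        ((ampn (Real.sqrt η) (Real.sqrt (1 - η)) m'.1 l.1 z.1.1 z.2.1 : ℝ) : ℂ)), Finset.sum_comm]
  refine Finset.sum_congr rfl fun z _ => ?_
  rw [Finset.sum_mul]
  refine Finset.sum_congr rfl fun y _ => ?_
  rw [Matrix.conjTranspose_apply]
  have e4 : bsKr n η M l m' z =
      ((ampn (Real.sqrt η) (Real.sqrt (1 - η)) m'.1 l.1 z.1.1 z.2.1 : ℝ) : ℂ) := rfl
  rw [e4, Complex.star_def, Complex.conj_ofReal]

/-- cuts of the kernel are positive semidefinite -/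
theorem ck_posSemidef (η : ℝ) (M : ℕ) (w : Conf n × Conf n → K) (X : ℕ) :
    (cut X (ck η M w)).PosSemidef := by
  have e : cut X (ck η M w) = ∑ l ∈ tb n (2 * M),
      Matrix.gram ℂ (fun x : Ct n X => zv η (wc M w) (x.1, l)) := by
    ext x y
    rw [Matrix.sum_apply]
    rfl
  rw [e]
  exact Matrix.posSemidef_sum _ fun l _ => Matrix.posSemidef_gram ℂ _

theorem ck_diag (η : ℝ) (M : ℕ) (w : Conf n × Conf n → K) (m : Conf n) :
    (ck η M w m m).re = ∑ l ∈ tb n (2 * M), ‖zv η (wc M w) (m, l)‖ ^ 2 := by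
  unfold ck
  rw [Complex.re_sum]
  simp only [re_inner_self]

theorem ck_diag_nonneg (η : ℝ) (M : ℕ) (w : Conf n × Conf n → K) (m : Conf n) :
    0 ≤ (ck η M w m m).re := by
  rw [ck_diag]
  exact Finset.sum_nonneg fun _ _ => by positivity

section est

variable {η : ℝ} (h0 : 0 ≤ η) (h1 : η ≤ 1) {w : Conf n × Conf n → K}
include h0 h1

theorem zv_wc_lev_le (M : ℕ) (c : Conf n) :
    ∑ x ∈ lev c, ‖zv η (wc M w) x‖ ^ 2 ≤ ∑ y ∈ lev c, ‖w y‖ ^ 2 := by
  rw [zv_lev h0 h1]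
  exact Finset.sum_le_sum fun y _ => norm_wc_le M w y

/-- weights of the configurations of an arbitrary finite set -/
theorem sum_zv_wc_le (M : ℕ) {G : Conf n → ℝ} (hG : ∀ c, 0 ≤ G c) {Y : Finset (Conf n)}
    (hs : Summable fun c => G c * ∑ y ∈ lev c, ‖w y‖ ^ 2)
    (s : Finset (Conf n × Conf n)) (hsY : ∀ x ∈ s, x.1 + x.2 ∉ Y) :
    ∑ x ∈ s, G (x.1 + x.2) * ‖zv η (wc M w) x‖ ^ 2 ≤
      ∑' c, G c * ∑ y ∈ lev c, ‖w y‖ ^ 2 - ∑ c ∈ Y, G c * ∑ y ∈ lev c, ‖w y‖ ^ 2 := by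
  classical
  have h2 := sum_le_lev (F := fun x => G (x.1 + x.2) * ‖zv η (wc M w) x‖ ^ 2)
    (fun x => mul_nonneg (hG _) (by positivity)) s
  refine h2.trans ?_
  have h3 : ∀ c, ∑ x ∈ lev c, G (x.1 + x.2) * ‖zv η (wc M w) x‖ ^ 2 ≤
      G c * ∑ y ∈ lev c, ‖w y‖ ^ 2 := by
    intro c
    have e : ∑ x ∈ lev c, G (x.1 + x.2) * ‖zv η (wc M w) x‖ ^ 2 =
        G c * ∑ x ∈ lev c, ‖zv η (wc M w) x‖ ^ 2 := by
      rw [Finset.mul_sum]
      refine Finset.sum_congr rfl fun x hx => ?_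
      rw [mem_lev.1 hx]
    rw [e]
    exact mul_le_mul_of_nonneg_left (zv_wc_lev_le h0 h1 M c) (hG c)
  refine (Finset.sum_le_sum fun c _ => h3 c).trans ?_
  have hdis : Disjoint (s.image fun x => x.1 + x.2) Y := by
    rw [Finset.disjoint_left]
    intro c hc hcY
    obtain ⟨x, hx, rfl⟩ := Finset.mem_image.1 hc
    exact hsY x hx hcY
  rw [le_sub_iff_add_le, ← Finset.sum_union hdis]
  exact hs.sum_le_tsum _ fun c _ => mul_nonneg (hG c) (Finset.sum_nonneg fun _ _ => by positivity)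

/-- the trace of a cut of the kernel -/
theorem ck_trace_le (hw : HasSum (fun y => ‖w y‖ ^ 2) 1) (M X : ℕ) :
    0 ≤ (cut X (ck η M w)).trace.re ∧ (cut X (ck η M w)).trace.re ≤ 1 := by
  have e : (cut X (ck η M w)).trace.re = ∑ m ∈ tb n X, (ck η M w m m).re := by
    rw [← sum_tb X (fun m => (ck η M w m m).re), Matrix.trace, Complex.re_sum]
    rfl
  rw [e]
  refine ⟨Finset.sum_nonneg fun m _ => ck_diag_nonneg η M w m, ?_⟩
  have hl := hasSum_lev hw
  have h2 := sum_zv_wc_le h0 h1 M (G := fun _ => 1) (fun _ => zero_le_one) (Y := ∅) (w := w)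
    (by simpa using hl.summable) (tb n X ×ˢ tb n (2 * M)) (by simp)
  simp only [one_mul, Finset.sum_empty, sub_zero] at h2
  rw [hl.tsum_eq, Finset.sum_product] at h2
  simp only [ck_diag]
  exact h2

/-- the entropy of a cut of the kernel, with a uniform tail -/
theorem ck_tail (hw : Summable fun y => (tot y.1 + tot y.2) * ‖w y‖ ^ 2) (M : ℕ) {Y X : ℕ}
    (hYX : Y ≤ X) :
    ent (cut X (ck η M w)) ≤ ent (cut Y (ck η M w)) +
      ((∑' c, tot c * ∑ y ∈ lev c, ‖w y‖ ^ 2 - ∑ c ∈ tb n Y, tot c * ∑ y ∈ lev c, ‖w y‖ ^ 2) +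
      (∑' c : Conf n, Real.exp (-tot c) - ∑ c ∈ tb n Y, Real.exp (-tot c))) := by
  classical
  have hsub : tb n Y ⊆ tb n X := by
    intro k hk
    rw [mem_tb] at hk ⊢
    exact hk.trans hYX
  set D : Conf n → ℝ := fun m => if m ∈ tb n X then (ck η M w m m).re else 0 with hD
  set s : Conf n → Conf n → ℂ := fun a b => if a ∈ tb n X ∧ b ∈ tb n X then ck η M w a b else 0
    with hs
  have hcX : cut X s = cut X (ck η M w) := by
    ext a b
    change s a.1 b.1 = _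
    rw [hs]
    simp only
    rw [if_pos ⟨mem_tb.2 a.2, mem_tb.2 b.2⟩]
    rfl
  have hcY : cut Y s = cut Y (ck η M w) := by
    ext a b
    change s a.1 b.1 = _
    rw [hs]
    simp only
    rw [if_pos ⟨hsub (mem_tb.2 a.2), hsub (mem_tb.2 b.2)⟩]
    rfl
  have hD0 : ∀ k, 0 ≤ D k := fun k => by
    simp only [hD]
    split_ifs
    · exact ck_diag_nonneg η M w k
    · exact le_rfl
  set W : Conf n → ℝ := fun k => tot k * D k + Real.exp (-tot k) with hW
  have hfin : Summable fun k => tot k * D k := by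
    refine summable_of_ne_finset_zero (s := tb n X) fun k hk => ?_
    simp only [hD]
    rw [if_neg hk, mul_zero]
  have hexp := P369.summable_exp_tot n
  have hWs : Summable W := hfin.add hexp
  have hle : ∀ x, (s x x).re ≤ D x := by
    intro x
    simp only [hD, hs]
    by_cases hx : x ∈ tb n X
    · rw [if_pos hx, if_pos ⟨hx, hx⟩]
    · rw [if_neg hx, if_neg (fun h => hx h.1)]
      simp
  have hB : (cut X s).PosSemidef := by
    rw [hcX]
    exact ck_posSemidef η M w X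
  have h2 := tb_tail hD0 hW hWs hYX hB hle
  rw [hcX, hcY] at h2
  refine h2.trans (add_le_add le_rfl ?_)
  have e1 : ∑' k, W k = ∑' k, tot k * D k + ∑' k : Conf n, Real.exp (-tot k) :=
    hfin.tsum_add hexp
  have e2 : ∑ k ∈ tb n Y, W k = ∑ k ∈ tb n Y, tot k * D k + ∑ k ∈ tb n Y, Real.exp (-tot k) :=
    Finset.sum_add_distrib
  have e3 : ∑' k, tot k * D k = ∑ k ∈ tb n X, tot k * (ck η M w k k).re := by
    rw [tsum_eq_sum (s := tb n X)]
    · refine Finset.sum_congr rfl fun k hk => ?_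
      simp only [hD]
      rw [if_pos hk]
    · intro k hk
      simp only [hD]
      rw [if_neg hk, mul_zero]
  have e4 : ∑ k ∈ tb n Y, tot k * D k = ∑ k ∈ tb n Y, tot k * (ck η M w k k).re := by
    refine Finset.sum_congr rfl fun k hk => ?_
    simp only [hD]
    rw [if_pos (hsub hk)]
  have e5 : ∑ k ∈ tb n X, tot k * (ck η M w k k).re - ∑ k ∈ tb n Y, tot k * (ck η M w k k).re =
      ∑ k ∈ tb n X \ tb n Y, tot k * (ck η M w k k).re := by
    rw [← Finset.sum_sdiff hsub]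
    ring
  have hlev : Summable fun c : Conf n => tot c * ∑ y ∈ lev c, ‖w y‖ ^ 2 := by
    refine (hasSum_lev hw.hasSum).summable.congr fun c => ?_
    rw [Finset.mul_sum]
    refine Finset.sum_congr rfl fun x hx => ?_
    rw [← tot_add, mem_lev.1 hx]
  have key : ∑ k ∈ tb n X \ tb n Y, tot k * (ck η M w k k).re ≤
      ∑' c, tot c * ∑ y ∈ lev c, ‖w y‖ ^ 2 - ∑ c ∈ tb n Y, tot c * ∑ y ∈ lev c, ‖w y‖ ^ 2 := by
    refine le_trans ?_ (sum_zv_wc_le h0 h1 M (G := tot) P369.tot_nonneg hlev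
      ((tb n X \ tb n Y) ×ˢ tb n (2 * M)) fun x hx => ?_)
    · rw [Finset.sum_product]
      refine Finset.sum_le_sum fun k _ => ?_
      rw [ck_diag, Finset.mul_sum]
      refine Finset.sum_le_sum fun l _ => ?_
      refine mul_le_mul_of_nonneg_right ?_ (by positivity)
      simp only
      rw [tot_add]
      have := P369.tot_nonneg l
      linarith
    · rw [Finset.mem_product, Finset.mem_sdiff] at hx
      intro h
      apply hx.1.2
      rw [mem_tb] at h ⊢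
      refine le_trans (Finset.sum_le_sum fun j _ => ?_) h
      exact Nat.le_add_right _ _
  rw [e1, e2, e3, e4]
  linarith

/-- convergence of the kernels -/
theorem ck_tendsto (hw : HasSum (fun y => ‖w y‖ ^ 2) 1) {m m' : Conf n} {a : ℂ}
    (ha : HasSum (fun l => ⟪zv η w (m, l), zv η w (m', l)⟫_ℂ) a) :
    Tendsto (fun M => ck η M w m m') atTop (𝓝 a) := by
  have hl := hasSum_lev hw
  have hinj : ∀ m : Conf n, Function.Injective fun l : Conf n => m + l := fun m a b h =>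
    add_left_cancel h
  have hb : Summable fun l : Conf n => ((∑ y ∈ lev (m + l), ‖w y‖ ^ 2) +
      ∑ y ∈ lev (m' + l), ‖w y‖ ^ 2) :=
    (hl.summable.comp_injective (hinj m)).add (hl.summable.comp_injective (hinj m'))
  have key : Tendsto (fun M => ∑' l, ⟪zv η (wc M w) (m, l), zv η (wc M w) (m', l)⟫_ℂ) atTop
      (𝓝 (∑' l, ⟪zv η w (m, l), zv η w (m', l)⟫_ℂ)) := by
    refine tendsto_tsum_of_dominated_convergence hb (fun l => ?_) (Eventually.of_forall fun M l => ?_)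
    · refine tendsto_const_nhds.congr' ?_
      filter_upwards [eventually_ge_atTop (∑ j, (m + l) j), eventually_ge_atTop (∑ j, (m' + l) j)]
        with M hM hM'
      rw [zv_wc_eq η w (x := (m, l)) hM, zv_wc_eq η w (x := (m', l)) hM']
    · have b1 : ‖zv η (wc M w) (m, l)‖ ^ 2 ≤ ∑ y ∈ lev (m + l), ‖w y‖ ^ 2 :=
        (norm_zv_le h0 h1 _ _).trans (Finset.sum_le_sum fun y _ => norm_wc_le M w y)
      have b2 : ‖zv η (wc M w) (m', l)‖ ^ 2 ≤ ∑ y ∈ lev (m' + l), ‖w y‖ ^ 2 :=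
        (norm_zv_le h0 h1 _ _).trans (Finset.sum_le_sum fun y _ => norm_wc_le M w y)
      refine (norm_inner_le_norm _ _).trans ?_
      nlinarith [sq_nonneg (‖zv η (wc M w) (m, l)‖ - ‖zv η (wc M w) (m', l)‖),
        norm_nonneg (zv η (wc M w) (m, l)), norm_nonneg (zv η (wc M w) (m', l))]
  rw [ha.tsum_eq] at key
  refine key.congr fun M => ?_
  exact (ck_hasSum η M w m m').tsum_eq

end est

end

end Vale.Agent.P369Top
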