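import Vale.Agent.P369.H124.Top3

/-!
P369 (helper124), TOP part 4: the linearised inequality for finite matrices implies the linearised
inequality for all pairs of states of finite energy.
-/

set_option linter.all false

namespace Vale.Agent.P369Top

open scoped InnerProductSpace Kronecker ComplexOrder
open Matrix Filter Topology
open Vale.Agent.P369 (Conf ampn ampn_hom below mem_below tot)
open Vale.Agent.P369.Sys
open Vale.Agent.P369V (ent)
open Vale.Agent.P369A (Ct cut)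
open Vale.Agent.P369T (tb mem_tb sum_tb tendsto_tb tb_tail)

noncomputable section

variable {n : ℕ}

theorem tmp_pos {N : ℝ} (hN : 0 < N) : 0 < tmp N := by
  unfold tmp
  apply inv_pos.2
  apply Real.log_pos
  rw [lt_div_iff₀ hN]
  linarith

/-- the output is bilinear -/
theorem bsOut_smul (η : ℝ) (K : ℕ) (a b : ℝ) (A B : Matrix (Ct n K) (Ct n K) ℂ) :
    bsOut n η K (a • A) (b • B) = (a * b) • bsOut n η K A B := by
  unfold bsOut
  rw [Finset.smul_sum]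
  refine Finset.sum_congr rfl fun l _ => ?_
  rw [Matrix.smul_kronecker, Matrix.kronecker_smul, smul_smul, Matrix.mul_smul, Matrix.smul_mul]

variable {H K : Type} [NormedAddCommGroup H] [InnerProductSpace ℂ H] [CompleteSpace H]
  [NormedAddCommGroup K] [InnerProductSpace ℂ K] [CompleteSpace K]

/-- the kernel of an operator -/
def krn (e : Conf n → H) (ρ : H →L[ℂ] H) (x y : Conf n) : ℂ := ⟪e x, ρ (e y)⟫_ℂ

theorem cut_krn_posSemidef {e : Conf n → H} {ρ : H →L[ℂ] H} (hρ : ρ.IsPositive) (M : ℕ) :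
    (cut M (krn e ρ)).PosSemidef := by
  obtain ⟨a, ha⟩ := P369Y.Ptr.pos_factor hρ
  have e1 : cut M (krn e ρ) = Matrix.gram ℂ (fun x : Ct n M => a (e x.1)) := by
    ext x y
    change ⟪e x.1, ρ (e y.1)⟫_ℂ = ⟪a (e x.1), a (e y.1)⟫_ℂ
    rw [ha]
  rw [e1]
  exact Matrix.posSemidef_gram ℂ _

theorem cut_krn_trace {e : Conf n → H} {ρ : H →L[ℂ] H} (M : ℕ) :
    (cut M (krn e ρ)).trace.re = ∑ k ∈ tb n M, (⟪e k, ρ (e k)⟫_ℂ).re := by
  rw [← sum_tb M (fun k => (⟪e k, ρ (e k)⟫_ℂ).re), Matrix.trace, Complex.re_sum]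
  rfl

theorem cut_krn_trace_eq {e : Conf n → H} {ρ : H →L[ℂ] H} (hρ : ρ.IsPositive) (M : ℕ) :
    (cut M (krn e ρ)).trace = (((cut M (krn e ρ)).trace.re : ℝ) : ℂ) := by
  have h := (cut_krn_posSemidef (e := e) hρ M).trace_nonneg
  rw [Complex.nonneg_iff] at h
  apply Complex.ext
  · rw [Complex.ofReal_re]
  · rw [Complex.ofReal_im, ← h.2]

theorem trace_tendsto {e : Conf n → H} {ρ : H →L[ℂ] H} (hρ : IsState e ρ) :
    Tendsto (fun M => (cut M (krn e ρ)).trace.re) atTop (𝓝 1) := by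
  simp only [cut_krn_trace]
  exact (show Tendsto (fun s : Finset (Conf n) => ∑ k ∈ s, (⟪e k, ρ (e k)⟫_ℂ).re) atTop
        (𝓝 1) from P369V.g3_hasSum hρ).comp (tendsto_tb n)

/-- lower bound of the entropy of the truncated state -/
theorem ent_cut_krn_ge {e : Conf n → H} (he : Orthonormal ℂ e) {ρ : H →L[ℂ] H}
    (hρ : ρ.IsPositive) (M : ℕ) :
    ∑ k ∈ tb n M, (⟪e k, P369.negMulLogOp ρ (e k)⟫_ℂ).re ≤ ent (cut M (krn e ρ)) := by
  have h := P369V.ga_T1 (e := fun k : Ct n M => e k.1) (he.comp _ Subtype.val_injective)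
    ((ContinuousLinearMap.nonneg_iff_isPositive ρ).2 hρ)
  have e1 : P369V.gaC (fun k : Ct n M => e k.1) ρ = cut M (krn e ρ) := rfl
  rw [e1] at h
  refine le_trans (le_of_eq ?_) h
  exact (sum_tb M (fun k => (⟪e k, P369.negMulLogOp ρ (e k)⟫_ℂ).re)).symm

/-- the normalized truncated state has asymptotically at least the entropy of the state -/
theorem ent_norm_ge {e : Conf n → H} (he : IsNumberBasis e) {ρ : H →L[ℂ] H} (hρ : IsState e ρ)
    (eρ : FiniteEnergy e ρ) {ε : ℝ} (hε : 0 < ε) :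
    ∀ᶠ M in atTop, entropy e ρ - ε ≤
      ent (((cut M (krn e ρ)).trace.re⁻¹ : ℝ) • cut M (krn e ρ)) := by
  obtain ⟨τ, hτ⟩ : ∃ τ : ℕ → ℝ, ∀ M, τ M = (cut M (krn e ρ)).trace.re := ⟨_, fun _ => rfl⟩
  have hlim : Tendsto τ atTop (𝓝 1) := (trace_tendsto hρ).congr fun M => (hτ M).symm
  have hpos : ∀ᶠ M in atTop, 0 < τ M := hlim.eventually (lt_mem_nhds zero_lt_one)
  have hsm := P369V.g3_summable he hρ eρ
  have t1 : Tendsto (fun M => ∑ k ∈ tb n M, (⟪e k, P369.negMulLogOp ρ (e k)⟫_ℂ).re) atTop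
      (𝓝 (entropy e ρ)) := (show Tendsto (fun s : Finset (Conf n) =>
        ∑ k ∈ s, (⟪e k, P369.negMulLogOp ρ (e k)⟫_ℂ).re) atTop (𝓝 (entropy e ρ))
        from hsm.hasSum).comp (tendsto_tb n)
  have t3 : Tendsto (fun M => (τ M)⁻¹ *
      (∑ k ∈ tb n M, (⟪e k, P369.negMulLogOp ρ (e k)⟫_ℂ).re) +
      Real.log (τ M)) atTop (𝓝 (1⁻¹ * entropy e ρ + Real.log 1)) :=
    ((hlim.inv₀ one_ne_zero).mul t1).add (hlim.log one_ne_zero)
  rw [inv_one, one_mul, Real.log_one, add_zero] at t3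
  filter_upwards [t3.eventually (lt_mem_nhds (show entropy e ρ - ε < entropy e ρ by linarith)),
    hpos] with M h3 hM
  rw [← hτ, P369V.g4_ent_smul (cut_krn_posSemidef hρ.1 M) hM, ← hτ]
  have h4 := ent_cut_krn_ge he.1 hρ.1 M
  have h5 := mul_le_mul_of_nonneg_left h4 (inv_nonneg.2 hM.le)
  have h6 : Real.log (τ M) / τ M * τ M = Real.log (τ M) := by field_simp
  rw [h6]
  linarith

/-- main step: the entropy of the output is at least the limit of the truncated bounds -/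
theorem lin_limit {η : ℝ} (h0 : 0 ≤ η) (h1 : η ≤ 1) {e : Conf n → H}
    (he : IsNumberBasis e) {ρA ρB ρC : H →L[ℂ] H} (hA : IsState e ρA) (hB : IsState e ρB)
    (hC : IsState e ρC) (eC : FiniteEnergy e ρC)
    {w : Conf n × Conf n → K} (hw : ∀ y y' : Conf n × Conf n, ⟪w y, w y'⟫_ℂ =
        ⟪e y.1, ρA (e y'.1)⟫_ℂ * ⟪e y.2, ρB (e y'.2)⟫_ℂ)
    (hws : HasSum (fun y => ‖w y‖ ^ 2) 1)
    (hwe : Summable (fun y => (tot y.1 + tot y.2) * ‖w y‖ ^ 2))
    (hout : ∀ m m', HasSum (fun l => ⟪zv η w (m, l), zv η w (m', l)⟫_ℂ) ⟪e m, ρC (e m')⟫_ℂ)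
    {G : ℝ} (hG : ∀ ε > 0, ∀ᶠ M in atTop, G - ε ≤
      ent (bsOut n η M (((cut M (krn e ρA)).trace.re⁻¹ : ℝ) • cut M (krn e ρA))
        (((cut M (krn e ρB)).trace.re⁻¹ : ℝ) • cut M (krn e ρB)))) :
    G ≤ entropy e ρC := by
  obtain ⟨τ, hτ⟩ : ∃ τ : ℕ → ℝ, ∀ M, τ M = (cut M (krn e ρA)).trace.re *
    (cut M (krn e ρB)).trace.re := ⟨_, fun _ => rfl⟩
  have hlim : Tendsto τ atTop (𝓝 1) := by
    have h := (trace_tendsto hA).mul (trace_tendsto hB)
    rw [one_mul] at h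
    exact h.congr fun M => (hτ M).symm
  have hpos : ∀ᶠ M in atTop, 0 < τ M := hlim.eventually (lt_mem_nhds zero_lt_one)
  have hck : ∀ M, bsOut n η M (((cut M (krn e ρA)).trace.re⁻¹ : ℝ) • cut M (krn e ρA))
        (((cut M (krn e ρB)).trace.re⁻¹ : ℝ) • cut M (krn e ρB)) =
        ((τ M)⁻¹ : ℝ) • cut (2 * M) (ck η M w) := by
    intro M
    rw [bsOut_smul, cut_ck (SA := krn e ρA) (SB := krn e ρB) hw, hτ, mul_inv]
  -- the tails
  obtain ⟨tl, htl⟩ : ∃ tl : ℕ → ℝ, ∀ Y, tl Y =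
      ((∑' c, tot c * ∑ y ∈ lev c, ‖w y‖ ^ 2 - ∑ c ∈ tb n Y, tot c * ∑ y ∈ lev c, ‖w y‖ ^ 2) +
      (∑' c : Conf n, Real.exp (-tot c) - ∑ c ∈ tb n Y, Real.exp (-tot c))) := ⟨_, fun _ => rfl⟩
  have hlev : Summable fun c : Conf n => tot c * ∑ y ∈ lev c, ‖w y‖ ^ 2 := by
    refine (hasSum_lev hwe.hasSum).summable.congr fun c => ?_
    rw [Finset.mul_sum]
    refine Finset.sum_congr rfl fun x hx => ?_
    rw [← tot_add, mem_lev.1 hx]
  have htl0 : Tendsto tl atTop (𝓝 0) := by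
    have t1 : Tendsto (fun Y => ∑ c ∈ tb n Y, tot c * ∑ y ∈ lev c, ‖w y‖ ^ 2) atTop
        (𝓝 (∑' c, tot c * ∑ y ∈ lev c, ‖w y‖ ^ 2)) :=
      (show Tendsto (fun s : Finset (Conf n) => ∑ c ∈ s, tot c * ∑ y ∈ lev c, ‖w y‖ ^ 2) atTop
        (𝓝 (∑' c, tot c * ∑ y ∈ lev c, ‖w y‖ ^ 2)) from hlev.hasSum).comp (tendsto_tb n)
    have t2 : Tendsto (fun Y => ∑ c ∈ tb n Y, Real.exp (-tot c)) atTop
        (𝓝 (∑' c : Conf n, Real.exp (-tot c))) :=
      (show Tendsto (fun s : Finset (Conf n) => ∑ c ∈ s, Real.exp (-tot c)) atTop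
        (𝓝 (∑' c : Conf n, Real.exp (-tot c))) from
          (P369.summable_exp_tot n).hasSum).comp (tendsto_tb n)
    have t3 := (t1.const_sub (∑' c, tot c * ∑ y ∈ lev c, ‖w y‖ ^ 2)).add
      (t2.const_sub (∑' c : Conf n, Real.exp (-tot c)))
    rw [sub_self, sub_self, add_zero] at t3
    exact t3.congr fun Y => (htl Y).symm
  -- bound at every cutoff
  have key : ∀ ε > 0, ∀ Y, G - ε ≤ ent (cut Y (krn e ρC)) + tl Y := by
    intro ε hε Y
    have a1 : ∀ᶠ M in atTop, G - ε ≤ (τ M)⁻¹ * (ent (cut Y (ck η M w)) + tl Y) +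
        |Real.log (τ M)| * |(τ M)⁻¹| := by
      filter_upwards [hG ε hε, hpos, eventually_ge_atTop Y] with M hM hM0 hMY
      rw [hck, P369V.g4_ent_smul (ck_posSemidef η M w _) hM0] at hM
      have b1 := ck_tail h0 h1 hwe M (Y := Y) (X := 2 * M) (by omega)
      rw [← htl] at b1
      obtain ⟨b2, b3⟩ := ck_trace_le h0 h1 hws M (2 * M)
      have b4 := mul_le_mul_of_nonneg_left b1 (inv_nonneg.2 hM0.le)
      have b5 : Real.log (τ M) / τ M * (cut (2 * M) (ck η M w)).trace.re ≤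
          |Real.log (τ M)| * |(τ M)⁻¹| := by
        calc _ ≤ |Real.log (τ M) / τ M * (cut (2 * M) (ck η M w)).trace.re| := le_abs_self _
          _ = (|Real.log (τ M)| * |(τ M)⁻¹|) * (cut (2 * M) (ck η M w)).trace.re := by
              rw [abs_mul, div_eq_mul_inv, abs_mul, abs_of_nonneg b2]
          _ ≤ (|Real.log (τ M)| * |(τ M)⁻¹|) * 1 :=
              mul_le_mul_of_nonneg_left b3 (by positivity)
          _ = _ := mul_one _
      linarith
    have hconv : Tendsto (fun M => cut Y (ck η M w)) atTop (𝓝 (cut Y (krn e ρC))) := by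
      refine tendsto_pi_nhds.mpr fun x => tendsto_pi_nhds.mpr fun y => ?_
      exact ck_tendsto h0 h1 hws (hout x.1 y.1)
    have a2 := P369V.g4_tendsto_ent (fun M => ck_posSemidef η M w Y)
      (cut_krn_posSemidef hC.1 Y) hconv
    have a3 : Tendsto (fun M => (τ M)⁻¹ * (ent (cut Y (ck η M w)) + tl Y) +
        |Real.log (τ M)| * |(τ M)⁻¹|) atTop
        (𝓝 ((1 : ℝ)⁻¹ * (ent (cut Y (krn e ρC)) + tl Y) + |Real.log 1| * |(1 : ℝ)⁻¹|)) :=
      ((hlim.inv₀ one_ne_zero).mul (a2.add_const _)).add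
        ((hlim.log one_ne_zero).abs.mul (hlim.inv₀ one_ne_zero).abs)
    rw [inv_one, one_mul, Real.log_one, abs_zero, zero_mul, add_zero] at a3
    exact ge_of_tendsto a3 a1
  refine le_of_forall_pos_le_add fun ε hε => ?_
  have hl : Tendsto (fun Y => entropy e ρC + (1 - ∑ k ∈ tb n Y, (⟪e k, ρC (e k)⟫_ℂ).re) +
      tl Y) atTop (𝓝 (entropy e ρC + (1 - 1) + 0)) := by
    refine ((tendsto_const_nhds.sub ?_).const_add _).add htl0
    exact (show Tendsto (fun s : Finset (Conf n) => ∑ k ∈ s, (⟪e k, ρC (e k)⟫_ℂ).re) atTop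
        (𝓝 1) from P369V.g3_hasSum hC).comp (tendsto_tb n)
  rw [sub_self, add_zero, add_zero] at hl
  have h6 : G - ε ≤ entropy e ρC := by
    refine ge_of_tendsto' hl fun Y => (key ε hε Y).trans ?_
    exact add_le_add (P369T.t7_ent_cut_le he hC eC Y) le_rfl
  linarith

/-- From finite matrices to all states. -/
theorem linAll_of_linFin (h : LinFin n) : LinAll n H K := by
  intro e f he hf ρA ρB ρC hA hB eA eB η NA NB h0 h1 hNA hNB hO
  obtain ⟨w, hw, hws, ρC', hO', hC', hout, huniq⟩ := output_all h0.le h1.le he hf hA hB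
  obtain rfl : ρC = ρC' := huniq ρC hO
  obtain ⟨hwe, eC⟩ := output_energy h0.le h1.le hA hB eA eB hw hout
  have hη : 0 < 1 - η := by linarith
  have hM0 : 0 < η * NA + (1 - η) * NB := by positivity
  obtain ⟨TM, hTM⟩ : ∃ TM, TM = tmp (η * NA + (1 - η) * NB) := ⟨_, rfl⟩
  obtain ⟨TA, hTA⟩ : ∃ TA, TA = tmp NA := ⟨_, rfl⟩
  obtain ⟨TB, hTB⟩ : ∃ TB, TB = tmp NB := ⟨_, rfl⟩
  obtain ⟨c, hc⟩ : ∃ c, c = n * (TM * P369.g (η * NA + (1 - η) * NB) -
      η * (TA * P369.g NA) - (1 - η) * (TB * P369.g NB)) := ⟨_, rfl⟩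
  have pM : 0 < TM := by rw [hTM]; exact tmp_pos hM0
  have pA : 0 < TA := by rw [hTA]; exact tmp_pos hNA
  have pB : 0 < TB := by rw [hTB]; exact tmp_pos hNB
  rw [← hTM, ← hTA, ← hTB, ← hc]
  have key : TM⁻¹ * (c + η * (TA * entropy e ρA) + (1 - η) * (TB * entropy e ρB)) ≤
      entropy e ρC := by
    refine lin_limit (w := w) h0.le h1.le he hA hB hC' eC hw hws hwe hout fun ε hε => ?_
    obtain ⟨δ, hδ, hδε⟩ : ∃ δ > 0, TM⁻¹ * (η * (TA * δ) + (1 - η) * (TB * δ)) ≤ ε := by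
      refine ⟨ε * TM / (η * TA + (1 - η) * TB), by positivity, le_of_eq ?_⟩
      have : η * TA + (1 - η) * TB ≠ 0 := by positivity
      field_simp
    have pos : ∀ {ρ : H →L[ℂ] H}, IsState e ρ →
        ∀ᶠ M in atTop, 0 < (cut M (krn e ρ)).trace.re := fun hρ =>
      (trace_tendsto hρ).eventually (lt_mem_nhds zero_lt_one)
    filter_upwards [ent_norm_ge he hA eA hδ, ent_norm_ge he hB eB hδ, pos hA, pos hB]
      with M h2 h3 h4 h5
    have psd : ∀ {ρ : H →L[ℂ] H}, IsState e ρ → 0 < (cut M (krn e ρ)).trace.re →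
        (((cut M (krn e ρ)).trace.re⁻¹ : ℝ) • cut M (krn e ρ)).PosSemidef ∧
        (((cut M (krn e ρ)).trace.re⁻¹ : ℝ) • cut M (krn e ρ)).trace = 1 := by
      intro ρ hρ hp
      refine ⟨(cut_krn_posSemidef hρ.1 M).smul (inv_nonneg.2 hp.le), ?_⟩
      rw [Matrix.trace_smul, cut_krn_trace_eq hρ.1 M, Complex.ofReal_re, Complex.real_smul,
        ← Complex.ofReal_mul, inv_mul_cancel₀ hp.ne', Complex.ofReal_one]
    obtain ⟨a1, a2⟩ := psd hA h4
    obtain ⟨b1, b2⟩ := psd hB h5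
    have h6 := h η NA NB h0 h1 hNA hNB M _ _ a1 a2 b1 b2
    unfold LinFinAt at h6
    rw [← hTM, ← hTA, ← hTB, ← hc, sub_zero] at h6
    generalize hX : ent (bsOut n η M (((cut M (krn e ρA)).trace.re⁻¹ : ℝ) • cut M (krn e ρA))
      (((cut M (krn e ρB)).trace.re⁻¹ : ℝ) • cut M (krn e ρB))) = X at h6 ⊢
    generalize hXA : ent (((cut M (krn e ρA)).trace.re⁻¹ : ℝ) • cut M (krn e ρA)) = XA at h2 h6
    generalize hXB : ent (((cut M (krn e ρB)).trace.re⁻¹ : ℝ) • cut M (krn e ρB)) = XB at h3 h6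
    have h7 : η * (TA * (entropy e ρA - δ)) ≤ η * (TA * XA) :=
      mul_le_mul_of_nonneg_left (mul_le_mul_of_nonneg_left h2 pA.le) h0.le
    have h8 : (1 - η) * (TB * (entropy e ρB - δ)) ≤ (1 - η) * (TB * XB) :=
      mul_le_mul_of_nonneg_left (mul_le_mul_of_nonneg_left h3 pB.le) hη.le
    have h9 : c + η * (TA * entropy e ρA) + (1 - η) * (TB * entropy e ρB) -
        (η * (TA * δ) + (1 - η) * (TB * δ)) ≤ TM * X := by linarith
    have h10 := mul_le_mul_of_nonneg_left h9 (inv_nonneg.2 pM.le)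
    rw [← mul_assoc TM⁻¹ TM X, inv_mul_cancel₀ pM.ne', one_mul, mul_sub] at h10
    linarith
  have h11 := mul_le_mul_of_nonneg_left key pM.le
  rw [← mul_assoc, mul_inv_cancel₀ pM.ne', one_mul] at h11
  linarith

end

end Vale.Agent.P369Top
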