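import Vale.Agent.P369.H124.Top4
import Vale.Agent.P369.H326.Swap

/-!
P369 (helper124), TOP part 5: the entropy photon-number inequality from the linearised inequality.
-/

set_option linter.all false

namespace Vale.Agent.P369Top

open scoped InnerProductSpace Kronecker ComplexOrder
open Matrix Filter Topology
open Vale.Agent.P369 (Conf ampn tot)
open Vale.Agent.P369.Sys
open Vale.Agent.P369Y

noncomputable section

variable {n : ℕ} {H K : Type} [NormedAddCommGroup H] [InnerProductSpace ℂ H] [CompleteSpace H]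
  [NormedAddCommGroup K] [InnerProductSpace ℂ K] [CompleteSpace K]

/-! ### transmissivity one -/

theorem isBeamSplitter_one {f : Conf n → Conf n → K}
    (hf : IsNumberBasis fun x : Conf n × Conf n => f x.1 x.2) :
    IsBeamSplitter 1 f (LinearIsometryEquiv.refl ℂ K) := by
  refine bs_of_rel rfl fun s m x y => ?_
  have h : comb 1 f s true m y = opK f s true m y := by
    unfold comb Mb
    cases s <;> simp
  rw [h]
  exact opK_adj hf s m x y

theorem output_one {e : Conf n → H} {f : Conf n → Conf n → K} (he : IsNumberBasis e)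
    (hf : IsNumberBasis fun x : Conf n × Conf n => f x.1 x.2) {ρA ρB ρC : H →L[ℂ] H}
    (hB : IsState e ρB) (hO : IsOutput 1 e f ρA ρB ρC) : ρC = ρA := by
  obtain ⟨U, S, hU, hS, hM⟩ := hO
  obtain rfl : U = LinearIsometryEquiv.refl ℂ K := bs_unique hf hU (isBeamSplitter_one hf)
  apply clm_ext he
  intro m'
  apply ext_nb he
  intro m
  have h1 : HasSum (fun l => ⟪e m, ρA (e m')⟫_ℂ * ⟪e l, ρB (e l)⟫_ℂ)
      (⟪e m, ρA (e m')⟫_ℂ * 1) := hB.2.mul_left _
  rw [mul_one] at h1
  refine (hM m m').unique (h1.congr_fun fun l => ?_)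
  exact hS m l m' l

/-! ### the temperature -/

theorem tmp_le {N : ℝ} (hN : 0 < N) : tmp N ≤ N + 1 := by
  unfold tmp
  have h1 : 0 < (N + 1) / N := by positivity
  have h2 : (N + 1)⁻¹ ≤ Real.log ((N + 1) / N) := by
    have h3 := Real.one_sub_inv_le_log_of_pos h1
    refine le_trans (le_of_eq ?_) h3
    field_simp
    ring
  have h4 : 0 < (N + 1)⁻¹ := by positivity
  have h5 := inv_anti₀ h4 h2
  rwa [inv_inv] at h5

/-- limit of the linearised bounds -/
theorem lin_to_g {η NA NB S : ℝ} (h0 : 0 < η) (h1 : η < 1) (hA : 0 ≤ NA) (hB : 0 ≤ NB)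
    (hM : 0 < η * NA + (1 - η) * NB) {n : ℕ} (hn : 1 ≤ n)
    (h : ∀ δ : ℝ, 0 < δ →
      n * (tmp (η * (NA + δ) + (1 - η) * (NB + δ)) * P369.g (η * (NA + δ) + (1 - η) * (NB + δ)) -
      η * (tmp (NA + δ) * P369.g (NA + δ)) - (1 - η) * (tmp (NB + δ) * P369.g (NB + δ))) ≤
      tmp (η * (NA + δ) + (1 - η) * (NB + δ)) * S - η * (tmp (NA + δ) * (n * P369.g NA)) -
        (1 - η) * (tmp (NB + δ) * (n * P369.g NB))) :
    n * P369.g (η * NA + (1 - η) * NB) ≤ S := by
  set M := η * NA + (1 - η) * NB with hMdef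
  have hη : 0 < 1 - η := by linarith
  have hn0 : (0 : ℝ) < n := by exact_mod_cast hn
  have hid : ∀ δ : ℝ, η * (NA + δ) + (1 - η) * (NB + δ) = M + δ := fun δ => by
    rw [hMdef]; ring
  -- error terms
  obtain ⟨dA, hdA⟩ : ∃ d : ℝ → ℝ, ∀ δ, d δ = P369.g (NA + δ) - P369.g NA := ⟨_, fun _ => rfl⟩
  obtain ⟨dB, hdB⟩ : ∃ d : ℝ → ℝ, ∀ δ, d δ = P369.g (NB + δ) - P369.g NB := ⟨_, fun _ => rfl⟩
  have hg0 : ∀ {x : ℝ}, Tendsto (fun δ => P369.g (x + δ)) (𝓝[>] 0) (𝓝 (P369.g x)) := by
    intro x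
    have hc : Continuous fun δ : ℝ => P369.g (x + δ) :=
      P369.continuous_g.comp (continuous_const.add continuous_id)
    have := hc.tendsto 0
    rw [add_zero] at this
    exact this.mono_left nhdsWithin_le_nhds
  have tA : Tendsto dA (𝓝[>] 0) (𝓝 0) := by
    have := (hg0 (x := NA)).sub_const (P369.g NA)
    rw [sub_self] at this
    exact this.congr fun δ => (hdA δ).symm
  have tB : Tendsto dB (𝓝[>] 0) (𝓝 0) := by
    have := (hg0 (x := NB)).sub_const (P369.g NB)
    rw [sub_self] at this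
    exact this.congr fun δ => (hdB δ).symm
  have key : ∀ δ : ℝ, 0 < δ → n * P369.g (M + δ) -
      Real.log ((M + δ + 1) / (M + δ)) * (n * (η * ((NA + δ + 1) * dA δ) +
        (1 - η) * ((NB + δ + 1) * dB δ))) ≤ S := by
    intro δ hδ
    have h2 := h δ hδ
    rw [hid] at h2
    have hT : 0 < tmp (M + δ) := tmp_pos (by linarith)
    have hTi : (tmp (M + δ))⁻¹ = Real.log ((M + δ + 1) / (M + δ)) := by
      unfold tmp; rw [inv_inv]
    have a0 : 0 ≤ dA δ := by
      rw [hdA, sub_nonneg, P369.g_le_iff hA (by linarith)]; linarith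
    have b0 : 0 ≤ dB δ := by
      rw [hdB, sub_nonneg, P369.g_le_iff hB (by linarith)]; linarith
    have a1 : tmp (NA + δ) * dA δ ≤ (NA + δ + 1) * dA δ :=
      mul_le_mul_of_nonneg_right (tmp_le (by linarith)) a0
    have b1 : tmp (NB + δ) * dB δ ≤ (NB + δ + 1) * dB δ :=
      mul_le_mul_of_nonneg_right (tmp_le (by linarith)) b0
    have a2 := mul_le_mul_of_nonneg_left a1 h0.le
    have b2 := mul_le_mul_of_nonneg_left b1 hη.le
    have c1 : n * (tmp (M + δ) * P369.g (M + δ)) - n * (η * ((NA + δ + 1) * dA δ) +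
        (1 - η) * ((NB + δ + 1) * dB δ)) ≤ tmp (M + δ) * S := by
      have c2 := mul_le_mul_of_nonneg_left (add_le_add a2 b2) hn0.le
      have e1 : P369.g (NA + δ) = P369.g NA + dA δ := by rw [hdA]; ring
      have e2 : P369.g (NB + δ) = P369.g NB + dB δ := by rw [hdB]; ring
      rw [e1, e2] at h2
      nlinarith [h2, c2]
    have c3 := mul_le_mul_of_nonneg_left c1 (inv_nonneg.2 hT.le)
    rw [← mul_assoc _ _ S, inv_mul_cancel₀ hT.ne', one_mul] at c3
    rw [← hTi]
    refine le_trans (le_of_eq ?_) c3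
    field_simp
  have hlog : Tendsto (fun δ => Real.log ((M + δ + 1) / (M + δ))) (𝓝[>] 0)
      (𝓝 (Real.log ((M + 1) / M))) := by
    have h3 : Tendsto (fun δ : ℝ => (M + δ + 1) / (M + δ)) (𝓝[>] 0) (𝓝 ((M + 1) / M)) := by
      have hc : ContinuousAt (fun δ : ℝ => (M + δ + 1) / (M + δ)) 0 := by
        refine ContinuousAt.div (by fun_prop) (by fun_prop) ?_
        rw [add_zero]; exact hM.ne'
      have := hc.tendsto
      rw [add_zero] at this
      exact this.mono_left nhdsWithin_le_nhds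
    exact h3.log (by positivity)
  have hlin : ∀ x : ℝ, Tendsto (fun δ : ℝ => x + δ + 1) (𝓝[>] 0) (𝓝 (x + 0 + 1)) := fun x =>
    ((by fun_prop : Continuous fun δ : ℝ => x + δ + 1).tendsto 0).mono_left nhdsWithin_le_nhds
  have hlim : Tendsto (fun δ => n * P369.g (M + δ) -
      Real.log ((M + δ + 1) / (M + δ)) * (n * (η * ((NA + δ + 1) * dA δ) +
        (1 - η) * ((NB + δ + 1) * dB δ)))) (𝓝[>] 0)
      (𝓝 (n * P369.g M - Real.log ((M + 1) / M) * (n * (η * ((NA + 0 + 1) * 0) +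
        (1 - η) * ((NB + 0 + 1) * 0))))) :=
    ((hg0 (x := M)).const_mul _).sub (hlog.mul ((((((hlin NA).mul tA).const_mul η).add
      (((hlin NB).mul tB).const_mul (1 - η)))).const_mul _))
  have e0 : n * P369.g M - Real.log ((M + 1) / M) * (n * (η * ((NA + 0 + 1) * 0) +
        (1 - η) * ((NB + 0 + 1) * 0))) = n * P369.g M := by ring
  rw [e0] at hlim
  refine le_of_tendsto hlim ?_
  filter_upwards [self_mem_nhdsWithin] with δ hδ
  exact key δ hδ

/-- The entropy photon-number inequality from the linearised inequality. -/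
theorem epni_of_linAll (hn : 1 ≤ n) (hlin : LinAll n H K) {η : ℝ} (h0 : 0 ≤ η) (h1 : η ≤ 1)
    (e : Conf n → H) (he : IsNumberBasis e)
    (f : Conf n → Conf n → K) (hf : IsNumberBasis fun x : Conf n × Conf n => f x.1 x.2)
    (ρA ρB : H →L[ℂ] H) (hA : IsState e ρA) (hB : IsState e ρB)
    (eA : FiniteEnergy e ρA) (eB : FiniteEnergy e ρB) :
    (∃ ρC : H →L[ℂ] H, IsOutput η e f ρA ρB ρC) ∧
    ∀ ρC : H →L[ℂ] H, IsOutput η e f ρA ρB ρC → IsState e ρC ∧ FiniteEnergy e ρC ∧
      η * photonNumber e ρA + (1 - η) * photonNumber e ρB ≤ photonNumber e ρC := by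
  obtain ⟨hex, hall⟩ := output_state h0 h1 he hf hA hB eA eB
  refine ⟨hex, fun ρC hO => ?_⟩
  obtain ⟨hC, eC⟩ := hall ρC hO
  refine ⟨hC, eC, ?_⟩
  rcases h0.eq_or_lt with h | h0'
  · subst h
    have hO' := P369N.isOutput_swap hf hO
    rw [sub_zero] at hO'
    rw [output_one he hf hA hO', sub_zero, zero_mul, one_mul, zero_add]
  rcases h1.eq_or_lt with h | h1'
  · subst h
    rw [output_one he hf hB hO, sub_self, zero_mul, one_mul, add_zero]
  have hn0 : (0 : ℝ) < n := by exact_mod_cast hn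
  obtain ⟨hNA, hgA⟩ := P369V.g8_photonNumber he hA
  obtain ⟨hNB, hgB⟩ := P369V.g8_photonNumber he hB
  obtain ⟨hNC, hgC⟩ := P369V.g8_photonNumber he hC
  have hη : 0 < 1 - η := by linarith
  have hM0 : 0 ≤ η * photonNumber e ρA + (1 - η) * photonNumber e ρB := by positivity
  rcases hM0.eq_or_lt with hz | hM
  · rw [← hz]; exact hNC
  rw [← P369.g_le_iff hM0 hNC, hgC, le_div_iff₀ hn0, mul_comm]
  refine lin_to_g h0' h1' hNA hNB hM hn fun δ hδ => ?_
  have h2 := hlin e f he hf ρA ρB ρC hA hB eA eB η (photonNumber e ρA + δ)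
    (photonNumber e ρB + δ) h0' h1' (by linarith) (by linarith) hO
  have e1 : entropy e ρA = n * P369.g (photonNumber e ρA) := by
    rw [hgA]; field_simp
  have e2 : entropy e ρB = n * P369.g (photonNumber e ρB) := by
    rw [hgB]; field_simp
  rw [← e1, ← e2]
  exact h2

/-- The entropy photon-number inequality from the linearised inequality for finite matrices. -/
theorem epni_of_linFin (hn : 1 ≤ n) (hlin : LinFin n) {η : ℝ} (h0 : 0 ≤ η) (h1 : η ≤ 1)
    (e : Conf n → H) (he : IsNumberBasis e)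
    (f : Conf n → Conf n → K) (hf : IsNumberBasis fun x : Conf n × Conf n => f x.1 x.2)
    (ρA ρB : H →L[ℂ] H) (hA : IsState e ρA) (hB : IsState e ρB)
    (eA : FiniteEnergy e ρA) (eB : FiniteEnergy e ρB) :
    (∃ ρC : H →L[ℂ] H, IsOutput η e f ρA ρB ρC) ∧
    ∀ ρC : H →L[ℂ] H, IsOutput η e f ρA ρB ρC → IsState e ρC ∧ FiniteEnergy e ρC ∧
      η * photonNumber e ρA + (1 - η) * photonNumber e ρB ≤ photonNumber e ρC :=
  epni_of_linAll hn (linAll_of_linFin hlin) h0 h1 e he f hf ρA ρB hA hB eA eB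

end

end Vale.Agent.P369Top
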