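import Vale.Agent.P369.H124.Top5
import Vale.Agent.P369.FD.Stmts

/-!
P369 (helper124): from `FD.S_LIN` to the entropy photon-number inequality.
-/

namespace Vale.Agent.P369Top

open scoped Kronecker ComplexOrder
open Matrix
open Vale.Agent.P369 (Conf ampn)
open Vale.Agent.P369V (ent)
open Vale.Agent.P369A (Ct)
open Vale.Agent.P369.Sys

noncomputable section

variable {H K : Type} [NormedAddCommGroup H] [InnerProductSpace ℂ H] [CompleteSpace H]
  [NormedAddCommGroup K] [InnerProductSpace ℂ K] [CompleteSpace K] {n : ℕ}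

/-- the two descriptions of the output agree -/
theorem bsOut_eq_outp (n : ℕ) (η : ℝ) (D : ℕ) (A B : Matrix (Ct n D) (Ct n D) ℂ) :
    bsOut n η D A B = P369.FD.outp (P369.FD.bsW n η D) A B := by
  ext k k'
  simp only [bsOut, P369.FD.outp, P369.FD.ptrR, Matrix.sum_apply, Matrix.mul_apply,
    Matrix.conjTranspose_apply, bsKr, P369.FD.bsW]

theorem tmp_eq {N : ℝ} (hN : 0 < N) : tmp N = (P369.FD.bb N)⁻¹ := by
  rw [tmp, P369.FD.bb]
  congr 2
  field_simp

/-- the linearised inequality of the finite track in the form used by `epni_of_linFin` -/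
theorem linFin_of_SLIN (h : P369.FD.S_LIN) (n : ℕ) : LinFin n := by
  intro η NA NB h0 h1 hA hB D A B pA tA pB tB
  have hM : 0 < η * NA + (1 - η) * NB := by
    have : 0 < 1 - η := by linarith
    positivity
  have key := h n η NA NB h0 h1 hA hB D A B ⟨pA, tA⟩ ⟨pB, tB⟩
  rw [LinFinAt, tmp_eq hM, tmp_eq hA, tmp_eq hB, bsOut_eq_outp]
  rw [sub_zero]
  simp only [div_eq_mul_inv] at key
  calc (n : ℝ) * ((P369.FD.bb (η * NA + (1 - η) * NB))⁻¹ * P369.g (η * NA + (1 - η) * NB) -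
        η * ((P369.FD.bb NA)⁻¹ * P369.g NA) - (1 - η) * ((P369.FD.bb NB)⁻¹ * P369.g NB))
      = n * (P369.g (η * NA + (1 - η) * NB) * (P369.FD.bb (η * NA + (1 - η) * NB))⁻¹ -
        η * (P369.g NA * (P369.FD.bb NA)⁻¹) - (1 - η) * (P369.g NB * (P369.FD.bb NB)⁻¹)) := by ring
    _ ≤ _ := key
    _ = _ := by ring

/-- **The entropy photon-number inequality**, from the linearised inequality for finite
matrices. -/
theorem epni_of_SLIN (h : P369.FD.S_LIN) (hn : 1 ≤ n) {η : ℝ} (h0 : 0 ≤ η) (h1 : η ≤ 1)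
    (e : Conf n → H) (he : IsNumberBasis e)
    (f : Conf n → Conf n → K) (hf : IsNumberBasis fun x : Conf n × Conf n => f x.1 x.2)
    (ρA ρB : H →L[ℂ] H) (hA : IsState e ρA) (hB : IsState e ρB)
    (eA : FiniteEnergy e ρA) (eB : FiniteEnergy e ρB) :
    (∃ ρC : H →L[ℂ] H, IsOutput η e f ρA ρB ρC) ∧
    ∀ ρC : H →L[ℂ] H, IsOutput η e f ρA ρB ρC → IsState e ρC ∧ FiniteEnergy e ρC ∧
      η * photonNumber e ρA + (1 - η) * photonNumber e ρB ≤ photonNumber e ρC :=
  epni_of_linFin hn (linFin_of_SLIN h n) h0 h1 e he f hf ρA ρB hA hB eA eB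

end

end Vale.Agent.P369Top
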